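import Mathlib

/-! Basic integral group algebra tools for symmetric groups. -/

namespace Vale.Agent.P197

open Equiv Finset
open scoped Classical

noncomputable section

variable {Ω : Type} [Fintype Ω] [DecidableEq Ω]

abbrev GA (Ω : Type) [DecidableEq Ω] [Fintype Ω] := MonoidAlgebra ℤ (Perm Ω)

def mk (f : Perm Ω → ℤ) : GA Ω := MonoidAlgebra.ofCoeff (Finsupp.equivFunOnFinite.symm f)

@[simp] lemma coeff_mk (f : Perm Ω → ℤ) (g : Perm Ω) : (mk f).coeff g = f g := rfl

lemma ga_ext {x y : GA Ω} (h : ∀ g, x.coeff g = y.coeff g) : x = y := by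
  apply MonoidAlgebra.coeff_injective
  ext g
  exact h g

lemma mul_coeff (x y : GA Ω) (g : Perm Ω) :
    (x * y).coeff g = ∑ h, x.coeff h * y.coeff (h⁻¹ * g) := by
  rw [MonoidAlgebra.coeff_mul_apply_left, Finsupp.sum_fintype]
  intro i
  simp

lemma mul_coeff' (x y : GA Ω) (g : Perm Ω) :
    (x * y).coeff g = ∑ h, x.coeff (g * h⁻¹) * y.coeff h := by
  rw [MonoidAlgebra.coeff_mul_apply_right, Finsupp.sum_fintype]
  intro i
  simp

def e (g : Perm Ω) : GA Ω := MonoidAlgebra.single g 1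

lemma e_mul_e (a b : Perm Ω) : e a * e b = e (a * b) := by
  simp [e, MonoidAlgebra.single_mul_single]

@[simp] lemma e_one : e (1 : Perm Ω) = 1 := rfl

lemma e_coeff (a g : Perm Ω) : (e a).coeff g = if a = g then 1 else 0 := by
  simp [e, Finsupp.single_apply]

@[simp] lemma e_mul_coeff (a g : Perm Ω) (x : GA Ω) : (e a * x).coeff g = x.coeff (a⁻¹ * g) := by
  simp [e, MonoidAlgebra.coeff_single_mul_apply]

@[simp] lemma mul_e_coeff (a g : Perm Ω) (x : GA Ω) : (x * e a).coeff g = x.coeff (g * a⁻¹) := by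
  simp [e, MonoidAlgebra.coeff_mul_single_apply]

lemma smul_coeff (c : ℤ) (x : GA Ω) (g : Perm Ω) : (c • x).coeff g = c * x.coeff g := rfl

lemma add_coeff (x y : GA Ω) (g : Perm Ω) : (x + y).coeff g = x.coeff g + y.coeff g := rfl

lemma neg_coeff (x : GA Ω) (g : Perm Ω) : (-x).coeff g = - x.coeff g := rfl

lemma zero_coeff (g : Perm Ω) : (0 : GA Ω).coeff g = 0 := rfl

lemma sum_coeff {ι : Type} (s : Finset ι) (f : ι → GA Ω) (g : Perm Ω) :
    (∑ i ∈ s, f i).coeff g = ∑ i ∈ s, (f i).coeff g := by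
  rw [MonoidAlgebra.coeff_sum, Finsupp.finsetSum_apply]

lemma expand (x : GA Ω) : x = ∑ g, x.coeff g • e g := by
  apply ga_ext
  intro g
  rw [sum_coeff]
  simp only [smul_coeff, e_coeff]
  simp

lemma ne_zero_iff (x : GA Ω) : x ≠ 0 ↔ ∃ g, x.coeff g ≠ 0 := by
  constructor
  · intro h
    by_contra h'
    push Not at h'
    exact h (ga_ext h')
  · rintro ⟨g, hg⟩ rfl
    exact hg rfl

lemma eq_zero_of_eq_neg {x : GA Ω} (h : x = -x) : x = 0 := by
  apply ga_ext
  intro g
  have := congrArg (fun z : GA Ω => z.coeff g) h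
  simp only [neg_coeff] at this
  rw [zero_coeff]
  omega

/-- The sign as an integer. -/
def sg (g : Perm Ω) : ℤ := ((Perm.sign g : ℤˣ) : ℤ)

lemma sg_mul (a b : Perm Ω) : sg (a * b) = sg a * sg b := by simp [sg]
@[simp] lemma sg_one : sg (1 : Perm Ω) = 1 := by simp [sg]
@[simp] lemma sg_inv (a : Perm Ω) : sg a⁻¹ = sg a := by simp [sg]
lemma sg_sq (a : Perm Ω) : sg a * sg a = 1 := by
  simp [sg, ← Units.val_mul]
lemma sg_swap {u v : Ω} (h : u ≠ v) : sg (swap u v) = -1 := by simp [sg, h]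
lemma sg_cases (a : Perm Ω) : sg a = 1 ∨ sg a = -1 := by
  rcases Int.units_eq_one_or (Perm.sign a) with h | h <;> simp [sg, h]
lemma sg_zmod (a : Perm Ω) : ((sg a : ℤ) : ZMod 2) = 1 := by
  rcases sg_cases a with h | h <;> rw [h] <;> rfl

/-- Permutations supported on `A` preserving `f`. -/
def Stab {α : Type} (A : Finset Ω) (f : Ω → α) : Subgroup (Perm Ω) where
  carrier := {g | (∀ x, x ∉ A → g x = x) ∧ ∀ x, f (g x) = f x}
  mul_mem' := by
    rintro a b ⟨ha, ha'⟩ ⟨hb, hb'⟩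
    refine ⟨fun x hx => ?_, fun x => ?_⟩
    · simp [hb x hx, ha x hx]
    · simp [ha', hb']
  one_mem' := ⟨fun _ _ => rfl, fun _ => rfl⟩
  inv_mem' := by
    rintro a ⟨ha, ha'⟩
    refine ⟨fun x hx => ?_, fun x => ?_⟩
    · rw [Perm.inv_eq_iff_eq, ha x hx]
    · have := ha' (a⁻¹ x)
      simpa using this.symm

lemma mem_Stab {α : Type} {A : Finset Ω} {f : Ω → α} {g : Perm Ω} :
    g ∈ Stab A f ↔ (∀ x, x ∉ A → g x = x) ∧ ∀ x, f (g x) = f x := Iff.rfl

/-- Permutations supported on `A`. -/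
def Fx (A : Finset Ω) : Subgroup (Perm Ω) := Stab A (fun _ => ())

lemma mem_Fx {A : Finset Ω} {g : Perm Ω} : g ∈ Fx A ↔ ∀ x, x ∉ A → g x = x := by
  simp [Fx, mem_Stab]

lemma Stab_le_Fx {α : Type} {A : Finset Ω} {f : Ω → α} : Stab A f ≤ Fx A :=
  fun _ hg => mem_Fx.2 hg.1

lemma Fx_mono {A B : Finset Ω} (h : A ⊆ B) : Fx A ≤ Fx B :=
  fun _ hg => mem_Fx.2 fun x hx => mem_Fx.1 hg x fun hx' => hx (h hx')

lemma Fx_map_mem {A : Finset Ω} {g : Perm Ω} (hg : g ∈ Fx A) (x : Ω) : g x ∈ A ↔ x ∈ A := by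
  constructor
  · intro h
    by_contra hx
    rw [mem_Fx.1 hg x hx] at h
    exact hx h
  · intro h
    by_contra hx
    have := mem_Fx.1 hg _ hx
    rw [g.injective this] at hx
    exact hx h

lemma swap_mem_Stab {α : Type} {A : Finset Ω} {f : Ω → α} {u v : Ω} (hu : u ∈ A) (hv : v ∈ A)
    (h : f u = f v) : swap u v ∈ Stab A f := by
  refine ⟨fun x hx => ?_, fun x => ?_⟩
  · apply swap_apply_of_ne_of_ne
    · rintro rfl; exact hx hu
    · rintro rfl; exact hx hv
  · rw [swap_apply_def]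
    split_ifs with h1 h2
    · rw [h1, h]
    · rw [h2, h]
    · rfl

/-- Sum of a subgroup. -/
def P (S : Subgroup (Perm Ω)) : GA Ω := mk fun g => if g ∈ S then 1 else 0
/-- Signed sum of a subgroup. -/
def M (S : Subgroup (Perm Ω)) : GA Ω := mk fun g => if g ∈ S then sg g else 0

lemma P_coeff (S : Subgroup (Perm Ω)) (g : Perm Ω) : (P S).coeff g = if g ∈ S then 1 else 0 := rfl
lemma M_coeff (S : Subgroup (Perm Ω)) (g : Perm Ω) :
    (M S).coeff g = if g ∈ S then sg g else 0 := rfl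

lemma e_mul_P {S : Subgroup (Perm Ω)} {s : Perm Ω} (hs : s ∈ S) : e s * P S = P S := by
  apply ga_ext
  intro g
  simp only [e_mul_coeff, P_coeff]
  rw [if_congr (S.mul_mem_cancel_left (S.inv_mem hs)) rfl rfl]

lemma P_mul_e {S : Subgroup (Perm Ω)} {s : Perm Ω} (hs : s ∈ S) : P S * e s = P S := by
  apply ga_ext
  intro g
  simp only [mul_e_coeff, P_coeff]
  rw [if_congr (S.mul_mem_cancel_right (S.inv_mem hs)) rfl rfl]

lemma e_mul_M {S : Subgroup (Perm Ω)} {s : Perm Ω} (hs : s ∈ S) : e s * M S = sg s • M S := by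
  apply ga_ext
  intro g
  simp only [e_mul_coeff, M_coeff, smul_coeff]
  rw [if_congr (S.mul_mem_cancel_left (S.inv_mem hs)) rfl rfl]
  split_ifs <;> simp [sg_mul]

lemma M_mul_e {S : Subgroup (Perm Ω)} {s : Perm Ω} (hs : s ∈ S) : M S * e s = sg s • M S := by
  apply ga_ext
  intro g
  simp only [mul_e_coeff, M_coeff, smul_coeff]
  rw [if_congr (S.mul_mem_cancel_right (S.inv_mem hs)) rfl rfl]
  split_ifs <;> simp [sg_mul, mul_comm]

/-- The transposition trick. -/
lemma M_kill {S : Subgroup (Perm Ω)} {g : Perm Ω} {u v : Ω} (huv : u ≠ v)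
    (hS : swap (g u) (g v) ∈ S) {X : GA Ω} (hX : e (swap u v) * X = X) :
    M S * e g * X = 0 := by
  apply eq_zero_of_eq_neg
  have h1 : g * swap u v = swap (g u) (g v) * g := by
    rw [mul_swap_eq_swap_mul]
  have h2 : g u ≠ g v := fun h => huv (g.injective h)
  calc M S * e g * X = M S * e g * (e (swap u v) * X) := by rw [hX]
    _ = M S * e (g * swap u v) * X := by rw [← e_mul_e]; simp only [mul_assoc]
    _ = (M S * e (swap (g u) (g v))) * e g * X := by rw [h1, ← e_mul_e]; simp only [mul_assoc]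
    _ = - (M S * e g * X) := by rw [M_mul_e hS, sg_swap h2]; simp

/-- Support inside a subgroup. -/
def Sup (S : Subgroup (Perm Ω)) (x : GA Ω) : Prop := ∀ g, x.coeff g ≠ 0 → g ∈ S

lemma Sup.mul {S : Subgroup (Perm Ω)} {x y : GA Ω} (hx : Sup S x) (hy : Sup S y) :
    Sup S (x * y) := by
  intro g hg
  rw [mul_coeff] at hg
  obtain ⟨h, -, hh⟩ := Finset.exists_ne_zero_of_sum_ne_zero hg
  have h1 := hx h (left_ne_zero_of_mul hh)
  have h2 := hy _ (right_ne_zero_of_mul hh)
  simpa using S.mul_mem h1 h2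

lemma Sup.mono {S T : Subgroup (Perm Ω)} {x : GA Ω} (hx : Sup S x) (h : S ≤ T) : Sup T x :=
  fun g hg => h (hx g hg)

lemma sup_P (S : Subgroup (Perm Ω)) : Sup S (P S) := by
  intro g hg
  rw [P_coeff] at hg
  by_contra h
  simp [h] at hg

lemma sup_M (S : Subgroup (Perm Ω)) : Sup S (M S) := by
  intro g hg
  rw [M_coeff] at hg
  by_contra h
  simp [h] at hg

lemma sup_e {S : Subgroup (Perm Ω)} {s : Perm Ω} (hs : s ∈ S) : Sup S (e s) := by
  intro g hg
  rw [e_coeff] at hg
  by_contra h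
  split_ifs at hg with h'
  · exact h (h' ▸ hs)
  · exact hg rfl

/-- The anti-involution. -/
def st (x : GA Ω) : GA Ω := mk fun g => x.coeff g⁻¹

lemma st_mul (x y : GA Ω) : st (x * y) = st y * st x := by
  apply ga_ext
  intro g
  simp only [st, coeff_mk]
  rw [mul_coeff, mul_coeff']
  simp only [coeff_mk]
  rw [← Equiv.sum_comp (Equiv.inv (Perm Ω))]
  apply Finset.sum_congr rfl
  intro h _
  simp [mul_comm]

lemma st_P (S : Subgroup (Perm Ω)) : st (P S) = P S := by
  apply ga_ext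
  intro g
  simp [st, P_coeff]

lemma st_M (S : Subgroup (Perm Ω)) : st (M S) = M S := by
  apply ga_ext
  intro g
  simp [st, M_coeff]

lemma eq_zero_of_mul_st {w : GA Ω} (h : w * st w = 0) : w = 0 := by
  have h1 : (w * st w).coeff 1 = 0 := by rw [h]; rfl
  rw [mul_coeff] at h1
  simp only [st, coeff_mk, mul_one, inv_inv] at h1
  rw [Finset.sum_eq_zero_iff_of_nonneg (fun g _ => mul_self_nonneg _)] at h1
  apply ga_ext
  intro g
  exact mul_self_eq_zero.1 (h1 g (Finset.mem_univ _))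

/-- The sign twist. -/
def tw (x : GA Ω) : GA Ω := mk fun g => sg g * x.coeff g

lemma tw_mul (x y : GA Ω) : tw (x * y) = tw x * tw y := by
  apply ga_ext
  intro g
  simp only [tw, coeff_mk]
  rw [mul_coeff, mul_coeff, Finset.mul_sum]
  apply Finset.sum_congr rfl
  intro h _
  simp only [coeff_mk, sg_mul, sg_inv]
  have := sg_sq h
  linear_combination (-(sg g * x.coeff h * y.coeff (h⁻¹ * g))) * this

lemma tw_P (S : Subgroup (Perm Ω)) : tw (P S) = M S := by
  apply ga_ext
  intro g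
  simp [tw, P_coeff, M_coeff]

lemma tw_M (S : Subgroup (Perm Ω)) : tw (M S) = P S := by
  apply ga_ext
  intro g
  simp only [tw, P_coeff, M_coeff, coeff_mk]
  split_ifs <;> simp [sg_sq]

lemma tw_e (g : Perm Ω) : tw (e g) = sg g • e g := by
  apply ga_ext
  intro h
  simp only [tw, coeff_mk, smul_coeff, e_coeff]
  split_ifs with h'
  · rw [h']
  · simp

lemma tw_ne_zero {x : GA Ω} (h : x ≠ 0) : tw x ≠ 0 := by
  rw [ne_zero_iff] at h ⊢
  obtain ⟨g, hg⟩ := h
  refine ⟨g, ?_⟩
  simp only [tw, coeff_mk]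
  rcases sg_cases g with h' | h' <;> simp [h', hg]

/-- Transposition lemma. -/
lemma transpose_act {A S T : Subgroup (Perm Ω)} (hS : S ≤ A) (hT : T ≤ A) {y : GA Ω} {g : Perm Ω}
    (hg : g ∈ A) (h : y * e g * M S * P T ≠ 0) :
    ∃ g' ∈ A, tw y * e g' * M T * P S ≠ 0 := by
  by_contra hc
  push Not at hc
  have key : ∀ z : GA Ω, Sup A z → tw y * z * M T * P S = 0 := by
    intro z hz
    rw [expand z]
    simp only [Finset.mul_sum, Finset.sum_mul, mul_smul_comm, smul_mul_assoc]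
    apply Finset.sum_eq_zero
    intro g' _
    by_cases h0 : z.coeff g' = 0
    · simp [h0]
    · rw [hc g' (hz g' h0)]; simp
  apply tw_ne_zero h
  apply eq_zero_of_mul_st
  simp only [tw_mul, tw_M, tw_P, st_mul, st_P, st_M]
  have hz : Sup A (tw (e g) * P S * M T) := by
    refine Sup.mul (Sup.mul ?_ ((sup_P S).mono hS)) ((sup_M T).mono hT)
    intro g' hg'
    simp only [tw, coeff_mk] at hg'
    exact sup_e hg g' (right_ne_zero_of_mul hg')
  have := key _ hz
  calc tw y * tw (e g) * P S * M T * (M T * (P S * (st (tw (e g)) * st (tw y))))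
      = (tw y * (tw (e g) * P S * M T) * M T * P S) * (st (tw (e g)) * st (tw y)) := by
        simp only [mul_assoc]
    _ = 0 := by rw [this, zero_mul]

/-- Induction over a stabiliser by transpositions. -/
lemma stab_induction {α : Type} {A : Finset Ω} {f : Ω → α} {Q : Perm Ω → Prop} (h1 : Q 1)
    (hs : ∀ x y g, x ∈ A → y ∈ A → x ≠ y → f x = f y → g ∈ Stab A f → Q g → Q (swap x y * g)) :
    ∀ g ∈ Stab A f, Q g := by
  intro g
  induction' hn : g.support.card using Nat.strong_induction_on with n ih generalizing g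
  intro hg
  by_cases h : g = 1
  · rw [h]; exact h1
  · obtain ⟨x, hx⟩ : ∃ x, g x ≠ x := by
      by_contra hc
      push Not at hc
      exact h (Equiv.ext hc)
    have hxA : x ∈ A := by
      by_contra hc
      exact hx (hg.1 x hc)
    have hgx : g x ∈ A := (Fx_map_mem (Stab_le_Fx hg) x).2 hxA
    have hsw : swap x (g x) ∈ Stab A f := swap_mem_Stab hxA hgx (hg.2 x).symm
    have hlt := Perm.card_support_swap_mul hx
    have := ih _ (hn ▸ hlt) (swap x (g x) * g) rfl ((Stab A f).mul_mem hsw hg)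
    have h2 := hs x (g x) _ hxA hgx (Ne.symm hx) (hg.2 x).symm ((Stab A f).mul_mem hsw hg) this
    simpa [← mul_assoc] using h2

end

end Vale.Agent.P197
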