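import Vale.Agent.P197.Two

/-! One double layer: the quaternion path functional. -/

namespace Vale.Agent.P197

open Equiv Finset
open scoped Classical

noncomputable section

variable {Ω : Type} [Fintype Ω] [DecidableEq Ω] {m : ℕ}

/-- Parity of the layer. -/
def Tri.db (T : Tri Ω m) (x : Ω) : ZMod 2 := (T.b x : ZMod 2)

/-- The four matrices. -/
def Gam (l : ZMod 2 × ZMod 2) (i j : ZMod 2) : ℤ :=
  if i + j = l.1 then (if l.2 * i = 0 then 1 else -1) else 0

/-- Pairwise orthogonality for the determinant form. -/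
def Polar (Γ : ZMod 2 × ZMod 2 → ZMod 2 → ZMod 2 → ℤ) : Prop :=
  ∀ a b, a ≠ b → ∀ i i' j j',
    Γ a i j * Γ b i' j' - Γ a i' j * Γ b i j' + Γ b i j * Γ a i' j' - Γ b i' j * Γ a i j' = 0

lemma polar_Gam : Polar Gam := by
  unfold Polar Gam
  decide

lemma polar_Gam' : Polar fun l i j => Gam l j i := by
  unfold Polar Gam
  decide

lemma Gam_mod (l : ZMod 2 × ZMod 2) (i j : ZMod 2) :
    ((Gam l i j : ℤ) : ZMod 2) = (((if i + j = l.1 then 1 else 0 : ℤ)) : ZMod 2) := by
  revert l i j
  unfold Gam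
  decide

/-- The path functional. -/
def WW (T : Tri Ω m) (B : Finset Ω) (Γ : ZMod 2 × ZMod 2 → ZMod 2 → ZMod 2 → ℤ)
    (l : Ω → ZMod 2 × ZMod 2) : ℤ :=
  ∑ s, ∑ s', (M (Stab B T.fR)).coeff s * (M (Stab B T.sac.fR)).coeff s' *
    ∏ x ∈ B, Γ (l x) (T.db (s x)) (T.db (s' x))

lemma WW_sac (T : Tri Ω m) (B : Finset Ω) (Γ : ZMod 2 × ZMod 2 → ZMod 2 → ZMod 2 → ℤ)
    (l : Ω → ZMod 2 × ZMod 2) : WW T B Γ l = WW T.sac B (fun l i j => Γ l j i) l := by
  simp only [WW]
  rw [Finset.sum_comm]
  apply Finset.sum_congr rfl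
  intro s _
  apply Finset.sum_congr rfl
  intro s' _
  rw [mul_comm ((M (Stab B T.fR)).coeff s')]
  rfl

lemma sum_M_shift {S : Subgroup (Perm Ω)} {t : Perm Ω} (ht : t ∈ S) (F : Perm Ω → ℤ) :
    ∑ s, (M S).coeff s * F (s * t) = sg t * ∑ s, (M S).coeff s * F s := by
  rw [← Equiv.sum_comp (Equiv.mulRight t⁻¹), Finset.mul_sum]
  apply Finset.sum_congr rfl
  intro s _
  have := congrArg (fun z : GA Ω => z.coeff s) (M_mul_e ht)
  simp only [mul_e_coeff, smul_coeff] at this
  simp [this, mul_assoc]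

lemma sum_P_shift {S : Subgroup (Perm Ω)} {t : Perm Ω} (ht : t ∈ S) (F : Perm Ω → ℤ) :
    ∑ s, (P S).coeff s * F (s * t) = ∑ s, (P S).coeff s * F s := by
  rw [← Equiv.sum_comp (Equiv.mulRight t⁻¹)]
  apply Finset.sum_congr rfl
  intro s _
  have := congrArg (fun z : GA Ω => z.coeff s) (P_mul_e ht)
  simp only [mul_e_coeff] at this
  simp [this]

lemma prod_two {B : Finset Ω} {u v : Ω} (hu : u ∈ B) (hv : v ∈ B) (huv : u ≠ v) (f : Ω → ℤ) :
    ∏ x ∈ B, f x = f u * f v * ∏ x ∈ (B.erase u).erase v, f x := by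
  rw [← Finset.mul_prod_erase B f hu,
    ← Finset.mul_prod_erase (B.erase u) f (Finset.mem_erase.2 ⟨huv.symm, hv⟩), mul_assoc]

lemma WW_swap_a (T : Tri Ω m) {B : Finset Ω} {Γ : ZMod 2 × ZMod 2 → ZMod 2 → ZMod 2 → ℤ}
    (hΓ : Polar Γ) {u v : Ω} (hu : u ∈ B) (hv : v ∈ B) (huv : u ≠ v) (hb : T.blk u = T.blk v)
    (ha : T.a u = T.a v) {l : Ω → ZMod 2 × ZMod 2} (hl : l u ≠ l v) :
    WW T B Γ (l ∘ swap u v) = - WW T B Γ l := by
  have ht : swap u v ∈ Stab B T.fR := swap_mem_Stab hu hv (by simp [Tri.fR, ha, hb])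
  have key : ∀ l' : Ω → ZMod 2 × ZMod 2, 2 * WW T B Γ l' =
      ∑ s, ∑ s', (M (Stab B T.fR)).coeff s * (M (Stab B T.sac.fR)).coeff s' *
        (∏ x ∈ B, Γ (l' x) (T.db (s x)) (T.db (s' x)) -
          ∏ x ∈ B, Γ (l' x) (T.db ((s * swap u v) x)) (T.db (s' x))) := by
    intro l'
    have := sum_M_shift ht (fun s => ∑ s', (M (Stab B T.sac.fR)).coeff s' *
      ∏ x ∈ B, Γ (l' x) (T.db (s x)) (T.db (s' x)))
    rw [sg_swap huv] at this
    simp only [Finset.mul_sum, ← mul_assoc] at this
    simp only [mul_sub, Finset.sum_sub_distrib, this, WW]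
    simp only [neg_mul, one_mul, Finset.sum_neg_distrib]
    ring
  have : 2 * WW T B Γ (l ∘ swap u v) + 2 * WW T B Γ l = 0 := by
    rw [key, key, ← Finset.sum_add_distrib]
    apply Finset.sum_eq_zero
    intro s _
    rw [← Finset.sum_add_distrib]
    apply Finset.sum_eq_zero
    intro s' _
    rw [← mul_add]
    apply mul_eq_zero_of_right
    simp only [prod_two hu hv huv]
    have e0 : ∀ x ∈ (B.erase u).erase v, swap u v x = x := by
      intro x hx
      simp only [Finset.mem_erase] at hx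
      exact swap_apply_of_ne_of_ne hx.2.1 hx.1
    have e1 : ∏ x ∈ (B.erase u).erase v, Γ ((l ∘ swap u v) x) (T.db (s x)) (T.db (s' x)) =
        ∏ x ∈ (B.erase u).erase v, Γ (l x) (T.db (s x)) (T.db (s' x)) :=
      Finset.prod_congr rfl fun x hx => by simp [e0 x hx]
    have e2 : ∏ x ∈ (B.erase u).erase v,
        Γ ((l ∘ swap u v) x) (T.db ((s * swap u v) x)) (T.db (s' x)) =
        ∏ x ∈ (B.erase u).erase v, Γ (l x) (T.db (s x)) (T.db (s' x)) :=
      Finset.prod_congr rfl fun x hx => by simp [e0 x hx]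
    have e3 : ∏ x ∈ (B.erase u).erase v, Γ (l x) (T.db ((s * swap u v) x)) (T.db (s' x)) =
        ∏ x ∈ (B.erase u).erase v, Γ (l x) (T.db (s x)) (T.db (s' x)) :=
      Finset.prod_congr rfl fun x hx => by simp [e0 x hx]
    rw [e1, e2, e3]
    simp only [Function.comp, Perm.mul_apply, swap_apply_left, swap_apply_right]
    have := hΓ _ _ hl (T.db (s u)) (T.db (s v)) (T.db (s' u)) (T.db (s' v))
    linear_combination (∏ x ∈ (B.erase u).erase v, Γ (l x) (T.db (s x)) (T.db (s' x))) * this
  omega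

lemma WW_swap (T : Tri Ω m) {B : Finset Ω} {u v : Ω} (hu : u ∈ B) (hv : v ∈ B) (huv : u ≠ v)
    (hb : T.blk u = T.blk v) (ha : T.a u = T.a v ∨ T.c u = T.c v) {l : Ω → ZMod 2 × ZMod 2}
    (hl : l u ≠ l v) : WW T B Gam (l ∘ swap u v) = - WW T B Gam l := by
  rcases ha with ha | ha
  · exact WW_swap_a T polar_Gam hu hv huv hb ha hl
  · rw [WW_sac, WW_sac T B Gam l]
    exact WW_swap_a T.sac polar_Gam' hu hv huv hb ha hl

/-- The double layer number `s`. -/
def Tri.layer (T : Tri Ω m) (s : ℕ) : Finset Ω := univ.filter fun x => T.blk x = s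

lemma Tri.mem_layer {T : Tri Ω m} {s : ℕ} {x : Ω} : x ∈ T.layer s ↔ T.blk x = s := by
  simp [Tri.layer]

/-- Colourings injective on columns. -/
def GoodCol (B : Finset Ω) (col : Ω → ℕ) (l : Ω → ZMod 2 × ZMod 2) : Prop :=
  ∀ x ∈ B, ∀ y ∈ B, x ≠ y → col x = col y → l x ≠ l y

lemma GoodCol.comp {B : Finset Ω} {col : Ω → ℕ} {l : Ω → ZMod 2 × ZMod 2} (h : GoodCol B col l)
    {c : Perm Ω} (hc : c ∈ Stab B col) : GoodCol B col (l ∘ c) := by
  intro x hx y hy hxy hcol
  exact h _ ((Fx_map_mem (Stab_le_Fx hc) x).2 hx) _ ((Fx_map_mem (Stab_le_Fx hc) y).2 hy)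
    (fun e => hxy (c.injective e)) (by rw [hc.2, hc.2, hcol])

lemma WW_swap_col (T : Tri Ω m) (s : ℕ) {col : Ω → ℕ}
    (mono : ∀ x ∈ T.layer s, ∀ y ∈ T.layer s, T.pos x ≤ T.pos y → col x ≤ col y) (n : ℕ) :
    ∀ x ∈ T.layer s, ∀ y ∈ T.layer s, col x = col y → T.pos y = T.pos x + n + 1 →
      ∀ l, GoodCol (T.layer s) col l →
        WW T (T.layer s) Gam (l ∘ swap x y) = - WW T (T.layer s) Gam l := by
  induction n with
  | zero =>
    intro x hx y hy hc hp l hl
    have hb : T.blk x = T.blk y := by rw [Tri.mem_layer.1 hx, Tri.mem_layer.1 hy]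
    obtain ⟨z, z1, z2, z3⟩ := T.partner hb (by omega)
    have : z = x := T.pos_inj (z1.trans hb.symm) (by omega)
    subst this
    have hne : z ≠ y := by rintro rfl; omega
    exact WW_swap T hx hy hne hb z3 (hl z hx y hy hne hc)
  | succ n ih =>
    intro x hx y hy hc hp l hl
    have hb : T.blk x = T.blk y := by rw [Tri.mem_layer.1 hx, Tri.mem_layer.1 hy]
    obtain ⟨z, z1, z2, z3⟩ := T.partner hb (by omega)
    have hz : z ∈ T.layer s := Tri.mem_layer.2 (z1.trans (Tri.mem_layer.1 hy))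
    have hcz : col z = col y := by
      have := mono x hx z hz (by omega)
      have := mono z hz y hy (by omega)
      omega
    have n1 : z ≠ y := by rintro rfl; omega
    have n2 : x ≠ z := by rintro rfl; omega
    have n3 : x ≠ y := by rintro rfl; omega
    have t1 : swap z y ∈ Stab (T.layer s) col := swap_mem_Stab hz hy hcz
    have t2 : swap x z ∈ Stab (T.layer s) col := swap_mem_Stab hx hz (hc.trans hcz.symm)
    have e1 : swap x y = swap z y * swap x z * swap z y := by
      rw [swap_mul_swap_mul_swap n2 n3, swap_comm]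
    have e2 : l ∘ swap x y = ((l ∘ swap z y) ∘ swap x z) ∘ swap z y := by
      rw [e1]; rfl
    rw [e2, WW_swap T hz hy n1 z1 z3 (((hl.comp t1).comp t2) z hz y hy n1 hcz),
      ih x hx z hz (hc.trans hcz.symm) (by push_cast at hp; omega) _ (hl.comp t1),
      WW_swap T hz hy n1 z1 z3 (hl z hz y hy n1 hcz), neg_neg]

lemma WW_col (T : Tri Ω m) (s : ℕ) {col : Ω → ℕ}
    (mono : ∀ x ∈ T.layer s, ∀ y ∈ T.layer s, T.pos x ≤ T.pos y → col x ≤ col y) :
    ∀ c ∈ Stab (T.layer s) col, ∀ l, GoodCol (T.layer s) col l →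
      WW T (T.layer s) Gam (l ∘ c) = sg c * WW T (T.layer s) Gam l := by
  apply stab_induction
  · intro l _
    simp
  · intro x y g hx hy hxy hc hg ih l hl
    have e1 : l ∘ (swap x y * g : Perm Ω) = (l ∘ swap x y) ∘ g := rfl
    rw [e1, ih _ (hl.comp (swap_mem_Stab hx hy hc)), sg_mul, sg_swap hxy]
    have hb : T.blk x = T.blk y := by rw [Tri.mem_layer.1 hx, Tri.mem_layer.1 hy]
    have : WW T (T.layer s) Gam (l ∘ swap x y) = - WW T (T.layer s) Gam l := by
      rcases lt_trichotomy (T.pos x) (T.pos y) with h | h | h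
      · exact WW_swap_col T s mono (T.pos y - T.pos x - 1).toNat x hx y hy hc (by omega) l hl
      · exact absurd (T.pos_inj hb h) hxy
      · rw [swap_comm]
        exact WW_swap_col T s mono (T.pos x - T.pos y - 1).toNat y hy x hx hc.symm (by omega) l hl
    rw [this]
    ring

/-- The number of nonzero terms of the path functional. -/
def NN (T : Tri Ω m) (B : Finset Ω) (p : Ω → ZMod 2) : ℤ :=
  ∑ s, ∑ s', (P (Stab B T.fR)).coeff s * (P (Stab B T.sac.fR)).coeff s' *
    ∏ x ∈ B, if T.db (s x) + T.db (s' x) = p x then 1 else 0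

lemma NN_sac (T : Tri Ω m) (B : Finset Ω) (p : Ω → ZMod 2) : NN T B p = NN T.sac B p := by
  simp only [NN]
  rw [Finset.sum_comm]
  apply Finset.sum_congr rfl
  intro s _
  apply Finset.sum_congr rfl
  intro s' _
  rw [mul_comm ((P (Stab B T.fR)).coeff s')]
  simp only [add_comm (T.db (s' _))]
  rfl

lemma WW_mod (T : Tri Ω m) (B : Finset Ω) (l : Ω → ZMod 2 × ZMod 2) :
    ((WW T B Gam l : ℤ) : ZMod 2) = ((NN T B (fun x => (l x).1) : ℤ) : ZMod 2) := by
  have e1 : ∀ (S : Subgroup (Perm Ω)) g, (((M S).coeff g : ℤ) : ZMod 2) = ((P S).coeff g : ℤ) := by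
    intro S g
    rw [← red_coeff, ← red_coeff, red_M]
  simp only [WW, NN, Int.cast_sum, Int.cast_mul, Int.cast_prod, e1, Gam_mod]

lemma NN_flip_a (T : Tri Ω m) {B : Finset Ω} {u v : Ω} (hu : u ∈ B) (hv : v ∈ B) (huv : u ≠ v)
    (hb : T.blk u = T.blk v) (ha : T.a u = T.a v) (p : Ω → ZMod 2) :
    NN T B p = NN T B fun x => if x = u ∨ x = v then p x + 1 else p x := by
  have ht : swap u v ∈ Stab B T.fR := swap_mem_Stab hu hv (by simp [Tri.fR, ha, hb])
  have := sum_P_shift ht (fun s => ∑ s', (P (Stab B T.sac.fR)).coeff s' *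
      ∏ x ∈ B, if T.db (s x) + T.db (s' x) = p x then 1 else 0)
  simp only [NN, mul_assoc, ← Finset.mul_sum]
  rw [← this]
  apply Finset.sum_congr rfl
  intro s _
  by_cases hs : s ∈ Stab B T.fR
  · congr 1
    apply Finset.sum_congr rfl
    intro s' _
    congr 1
    apply Finset.prod_congr rfl
    intro x _
    have k1 := hs.2 u
    have k2 := hs.2 v
    simp only [Tri.fR, Prod.mk.injEq, Tri.blk] at k1 k2 hb
    have k3 : T.b (s u) ≠ T.b (s v) := fun h => huv (s.injective (T.inj _ _ (by omega) h))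
    have k4 : T.db (s u) = T.db (s v) + 1 := by
      simp only [Tri.db]
      have : ((T.b (s v) : ZMod 2) + 1) = ((T.b (s v) + 1 : ℕ) : ZMod 2) := by push_cast; rfl
      rw [this, ZMod.natCast_eq_natCast_iff']
      omega
    have k5 : ∀ i j q : ZMod 2, (i + j = q ↔ i + 1 + j = q + 1) ∧ (i + 1 + j = q ↔ i + j = q + 1) := by
      decide
    by_cases e1 : x = u
    · subst e1
      simp only [Perm.mul_apply, swap_apply_left, true_or, if_true, k4]
      exact if_congr (k5 _ _ _).1 rfl rfl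
    by_cases e2 : x = v
    · subst e2
      simp only [Perm.mul_apply, swap_apply_right, or_true, if_true, k4]
      exact if_congr (k5 _ _ _).2 rfl rfl
    · simp [swap_apply_of_ne_of_ne e1 e2, e1, e2]
  · simp [P_coeff, hs]

lemma NN_flip (T : Tri Ω m) {B : Finset Ω} {u v : Ω} (hu : u ∈ B) (hv : v ∈ B) (huv : u ≠ v)
    (hb : T.blk u = T.blk v) (ha : T.a u = T.a v ∨ T.c u = T.c v) (p : Ω → ZMod 2) :
    NN T B p = NN T B fun x => if x = u ∨ x = v then p x + 1 else p x := by
  rcases ha with ha | ha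
  · exact NN_flip_a T hu hv huv hb ha p
  · rw [NN_sac, NN_sac T B (fun x => _)]
    exact NN_flip_a T.sac hu hv huv hb ha p

lemma Stab_fR_le_St (T : Tri Ω m) (B : Finset Ω) : Stab B T.fR ≤ St T.a :=
  fun _ hg => mem_St.2 fun x => congrArg Prod.fst (hg.2 x)

lemma NN_zero (T : Tri Ω m) {B : Finset Ω} {p : Ω → ZMod 2} (hp : ∀ x ∈ B, p x = 0) :
    NN T B p = 1 := by
  have key : ∀ s s' : Perm Ω, (P (Stab B T.fR)).coeff s * (P (Stab B T.sac.fR)).coeff s' *
      (∏ x ∈ B, if T.db (s x) + T.db (s' x) = p x then (1 : ℤ) else 0) ≠ 0 → s = 1 ∧ s' = 1 := by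
    intro s s' h
    have k1 := sup_P _ _ (left_ne_zero_of_mul (left_ne_zero_of_mul h))
    have k2 := sup_P _ _ (right_ne_zero_of_mul (left_ne_zero_of_mul h))
    have k3 := Finset.prod_ne_zero_iff.1 (right_ne_zero_of_mul h)
    have k4 : ∀ x, T.b (s' x) = T.b (s x) := by
      intro x
      by_cases hx : x ∈ B
      · have a1 := k3 x hx
        rw [hp x hx] at a1
        have a2 : T.db (s x) + T.db (s' x) = 0 := by
          by_contra hc; simp [hc] at a1
        have a3 := (Stab_fR_le T B k1).2 x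
        have a4 := (Stab_fR_le T.sac B k2).2 x
        simp only [Tri.db] at a2
        rw [← Nat.cast_add, ZMod.natCast_eq_zero_iff] at a2
        simp only [Tri.sac_b, Tri.blk] at a3 a4
        omega
      · rw [k1.1 x hx, k2.1 x hx]
    have k5 : s' * s⁻¹ ∈ St T.b := by
      rw [mem_St]
      intro x
      rw [Perm.mul_apply, k4]
      simp
    obtain ⟨a1, a2⟩ := T.f3 k5 (Stab_fR_le_St T B k1) (by simpa using Stab_fR_le_St T.sac B k2)
    subst a1
    exact ⟨rfl, by simpa using a2⟩
  rw [NN, Finset.sum_eq_single 1, Finset.sum_eq_single 1]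
  · simp only [P_coeff, Subgroup.one_mem, if_true, one_mul]
    apply Finset.prod_eq_one
    intro x hx
    rw [hp x hx, if_pos]
    exact CharTwo.add_self_eq_zero _
  · intro b _ hb
    by_contra hc
    exact hb (key 1 b hc).2
  · simp
  · intro a _ ha
    apply Finset.sum_eq_zero
    intro b _
    by_contra hc
    exact ha (key a b hc).1
  · simp

lemma NN_one (T : Tri Ω m) (s : ℕ) (p : Ω → ZMod 2) (hp : ∑ x ∈ T.layer s, p x = 0) :
    NN T (T.layer s) p = 1 := by
  have key : ∀ S : Finset Ω, Closed T S → ∀ p : Ω → ZMod 2, ∑ x ∈ T.layer s, p x = 0 →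
      (∀ x ∈ T.layer s, x ∉ S → p x = 0) → NN T (T.layer s) p = 1 := by
    intro S
    induction S using Finset.induction_on_max_value T.pos with
    | empty =>
      intro _ p _ h
      exact NN_zero T fun x hx => h x hx (by simp)
    | insert v S hvS hmax ih =>
      intro hcl p hsum hS
      have ih' := ih (hcl.of_insert hmax)
      by_cases hv : v ∈ T.layer s ∧ p v ≠ 0
      · obtain ⟨hvB, hpv⟩ := hv
        obtain ⟨y, hy, hpy⟩ : ∃ y ∈ (T.layer s).erase v, p y ≠ 0 := by
          apply Finset.exists_ne_zero_of_sum_ne_zero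
          rw [← Finset.add_sum_erase _ _ hvB] at hsum
          intro h
          rw [h, add_zero] at hsum
          exact hpv hsum
        obtain ⟨hyv, hyB⟩ := Finset.mem_erase.1 hy
        have hyS : y ∈ S := by
          by_contra hc
          exact hpy (hS y hyB (by simp [hyv, hc]))
        have hb : T.blk y = T.blk v := by rw [Tri.mem_layer.1 hyB, Tri.mem_layer.1 hvB]
        have hlt : T.pos y < T.pos v := by
          rcases lt_or_eq_of_le (hmax _ hyS) with e1 | e1
          · exact e1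
          · exact absurd (T.pos_inj hb e1) hyv
        obtain ⟨z, z1, z2, z3⟩ := T.partner hb hlt
        have hz : z ∈ T.layer s := Tri.mem_layer.2 (z1.trans (Tri.mem_layer.1 hvB))
        have n1 : z ≠ v := by rintro rfl; omega
        have hzS : z ∈ S := by
          have := hcl v (mem_insert_self _ _) z z1 (by omega)
          simpa [n1] using this
        rw [NN_flip T hz hvB n1 z1 z3]
        apply ih'
        · have e1 : ∀ x, (if x = z ∨ x = v then p x + 1 else p x) =
              p x + ((if x = z then 1 else 0) + if x = v then 1 else 0) := by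
            intro x
            by_cases c1 : x = z
            · subst c1; simp [n1]
            · by_cases c2 : x = v
              · subst c2; simp [c1]
              · simp [c1, c2]
          simp only [e1, Finset.sum_add_distrib, hsum, Finset.sum_ite_eq', hz, hvB, if_true]
          rfl
        · intro x hx hxS
          by_cases c2 : x = v
          · subst c2
            simp only [or_true, if_true]
            revert hpv
            generalize p x = q
            revert q
            decide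
          · have c1 : x ≠ z := by rintro rfl; exact hxS hzS
            simp only [c1, c2, or_self, if_false]
            exact hS x hx (by simp [c2, hxS])
      · apply ih' p hsum
        intro x hx hxS
        by_cases c2 : x = v
        · subst c2
          by_contra hc
          exact hv ⟨hx, hc⟩
        · exact hS x hx (by simp [c2, hxS])
  exact key univ (fun _ _ _ _ _ => mem_univ _) p hp (fun x _ h => absurd (mem_univ x) h)

lemma pair_mul (x y : GA Ω) (F : Perm Ω → ℤ) :
    ∑ h, (x * y).coeff h * F h = ∑ k, ∑ r, x.coeff k * y.coeff r * F (k * r) := by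
  simp only [mul_coeff, Finset.sum_mul]
  rw [Finset.sum_comm]
  apply Finset.sum_congr rfl
  intro k _
  rw [← Equiv.sum_comp (Equiv.mulLeft k)]
  simp

lemma sum_P_pos (S : Subgroup (Perm Ω)) : 0 < ∑ g, (P S).coeff g := by
  apply Finset.sum_pos'
  · intro g _
    rw [P_coeff]
    split_ifs <;> simp
  · exact ⟨1, mem_univ _, by simp [P_coeff]⟩

lemma avg {D R : Subgroup (Perm Ω)} (F : Perm Ω → ℤ) (hF : ∀ d ∈ D, ∀ g, F (d * g) = F g)
    (h : Perm Ω) : ∑ g, sg g * F g * (M D * P R).coeff (g * h) =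
      (∑ d, (P D).coeff d) * sg h * ∑ s, (M R).coeff s * F (s * h⁻¹) := by
  have := pair_mul (M D) (P R) (fun g => sg (g * h⁻¹) * F (g * h⁻¹))
  rw [← Equiv.sum_comp (Equiv.mulRight h⁻¹)]
  simp only [Equiv.coe_mulRight, inv_mul_cancel_right]
  simp only [mul_comm _ ((M D * P R).coeff _)]
  rw [this, Finset.sum_mul, Finset.sum_mul]
  apply Finset.sum_congr rfl
  intro d _
  rw [Finset.mul_sum]
  apply Finset.sum_congr rfl
  intro s _
  simp only [M_coeff, P_coeff]
  split_ifs with c1 c2
  · rw [mul_assoc d, hF d c1, sg_mul, sg_mul, sg_inv]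
    linear_combination (sg s * sg h * F (s * h⁻¹)) * sg_sq d
  all_goals simp

theorem block (T : Tri Ω m) (s : ℕ) (hodd : Odd (T.layer s).card) (row col : Ω → ℕ)
    (mono : ∀ x ∈ T.layer s, ∀ y ∈ T.layer s, T.pos x ≤ T.pos y → col x ≤ col y)
    (win : ∀ x ∈ T.layer s, ∀ y ∈ T.layer s, x ≠ y → col x = col y →
      row x ≠ row y ∧ row x < row y + 4) :
    ∃ g1 ∈ Fx (T.layer s), ∃ g2 ∈ Fx (T.layer s),
      (mk (fun h => (T.cH (T.layer s)).coeff (g1 * h) * (T.sac.cH (T.layer s)).coeff (g2 * h)) *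
        M (Stab (T.layer s) col) * P (Stab (T.layer s) row)).coeff 1 ≠ 0 := by
  by_contra hc
  push Not at hc
  set B := T.layer s with hB
  set c := M (Stab B col) * P (Stab B row) with hcdef
  have sc : Sup (Fx B) c := ((sup_M _).mono Stab_le_Fx).mul ((sup_P _).mono Stab_le_Fx)
  have h0 : ∀ g1 g2, ∑ h, (T.cH B).coeff (g1 * h⁻¹) * (T.sac.cH B).coeff (g2 * h⁻¹) *
      c.coeff h = 0 := by
    intro g1 g2
    by_cases hg : g1 ∈ Fx B ∧ g2 ∈ Fx B
    · have := hc g1 hg.1 g2 hg.2
      rw [mul_assoc, mul_coeff'] at this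
      simpa using this
    · apply Finset.sum_eq_zero
      intro h _
      by_contra hne
      have k1 := Stab_le_Fx (T.sup_cH B _ (left_ne_zero_of_mul (left_ne_zero_of_mul hne)))
      have k2 := Stab_le_Fx (T.sac.sup_cH B _ (right_ne_zero_of_mul (left_ne_zero_of_mul hne)))
      have k3 := sc _ (right_ne_zero_of_mul hne)
      exact hg ⟨by simpa using (Fx B).mul_mem k1 k3, by simpa using (Fx B).mul_mem k2 k3⟩
  set o : ZMod 2 := ∑ x ∈ B, (row x : ZMod 2) with ho
  set l : Ω → ZMod 2 × ZMod 2 := fun x => ((row x : ZMod 2) + o, ((row x / 2 : ℕ) : ZMod 2))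
    with hl
  have hgood : GoodCol B col l := by
    intro x hx y hy hxy hcol hxy'
    have a1 := win x hx y hy hxy hcol
    have a2 := win y hy x hx hxy.symm hcol.symm
    simp only [hl, Prod.mk.injEq, add_left_inj, ZMod.natCast_eq_natCast_iff'] at hxy'
    omega
  have hW : WW T B Gam l ≠ 0 := by
    intro h
    have := WW_mod T B l
    rw [h, NN_one T s] at this
    · revert this; decide
    · simp only [hl, Finset.sum_add_distrib, Finset.sum_const, nsmul_eq_mul]
      rw [← hB, ← ho, (ZMod.natCast_eq_one_iff_odd).2 hodd, one_mul]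
      exact CharTwo.add_self_eq_zero _
  set Φ : Perm Ω → Perm Ω → ℤ := fun g1 g2 => ∏ x ∈ B, Gam (l x) (T.db (g1 x)) (T.db (g2 x))
    with hΦ
  set nD := ∑ d, (P (Stab B T.b)).coeff d with hnD
  have h1 : ∀ h, h ∈ Fx B → ∑ g1, ∑ g2, sg g1 * sg g2 * Φ g1 g2 *
      ((T.cH B).coeff (g1 * h⁻¹) * (T.sac.cH B).coeff (g2 * h⁻¹)) =
      nD * nD * WW T B Gam (l ∘ (h⁻¹ : Perm Ω)) := by
    intro h hh
    have a1 : ∀ g1, ∑ g2, sg g2 * Φ g1 g2 * (T.sac.cH B).coeff (g2 * h⁻¹) =
        nD * sg h * ∑ s', (M (Stab B T.sac.fR)).coeff s' * Φ g1 (s' * h) := by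
      intro g1
      have := avg (D := Stab B T.b) (R := Stab B T.sac.fR) (Φ g1) (by
        intro d hd g
        simp only [hΦ, Tri.db, Perm.mul_apply, hd.2]) h⁻¹
      rw [sg_inv, inv_inv] at this
      exact this
    have a2 := avg (D := Stab B T.b) (R := Stab B T.fR)
      (fun g1 => ∑ s', (M (Stab B T.sac.fR)).coeff s' * Φ g1 (s' * h)) (by
        intro d hd g
        simp only [hΦ, Tri.db, Perm.mul_apply, hd.2]) h⁻¹
    calc _ = ∑ g1, sg g1 * (T.cH B).coeff (g1 * h⁻¹) *
          ∑ g2, sg g2 * Φ g1 g2 * (T.sac.cH B).coeff (g2 * h⁻¹) := by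
          simp only [Finset.mul_sum]
          apply Finset.sum_congr rfl
          intro g1 _
          apply Finset.sum_congr rfl
          intro g2 _
          ring
      _ = nD * sg h * ∑ g1, sg g1 * (∑ s', (M (Stab B T.sac.fR)).coeff s' * Φ g1 (s' * h)) *
          (T.cH B).coeff (g1 * h⁻¹) := by
          simp only [a1]
          rw [Finset.mul_sum]
          apply Finset.sum_congr rfl
          intro g1 _
          ring
      _ = nD * nD * (sg h * sg h) * ∑ s, (M (Stab B T.fR)).coeff s *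
          ∑ s', (M (Stab B T.sac.fR)).coeff s' * Φ (s * h) (s' * h) := by
          rw [Tri.cH, a2, sg_inv, inv_inv]
          ring
      _ = _ := by
          rw [sg_sq, mul_one, WW]
          congr 1
          apply Finset.sum_congr rfl
          intro s _
          rw [Finset.mul_sum]
          apply Finset.sum_congr rfl
          intro s' _
          rw [mul_assoc]
          congr 2
          simp only [hΦ]
          apply Finset.prod_bijective h h.bijective
          · intro x; exact (Fx_map_mem hh x).symm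
          · intro x _; simp
  have h2 : ∑ h, c.coeff h * (nD * nD * WW T B Gam (l ∘ (h⁻¹ : Perm Ω))) = 0 := by
    calc _ = ∑ h, c.coeff h * ∑ g1, ∑ g2, sg g1 * sg g2 * Φ g1 g2 *
          ((T.cH B).coeff (g1 * h⁻¹) * (T.sac.cH B).coeff (g2 * h⁻¹)) := by
          apply Finset.sum_congr rfl
          intro h _
          by_cases hh : c.coeff h = 0
          · simp [hh]
          · rw [h1 h (sc h hh)]
      _ = ∑ g1, ∑ g2, sg g1 * sg g2 * Φ g1 g2 *
          ∑ h, (T.cH B).coeff (g1 * h⁻¹) * (T.sac.cH B).coeff (g2 * h⁻¹) * c.coeff h := by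
          simp only [Finset.mul_sum]
          rw [Finset.sum_comm]
          apply Finset.sum_congr rfl
          intro g1 _
          rw [Finset.sum_comm]
          apply Finset.sum_congr rfl
          intro g2 _
          apply Finset.sum_congr rfl
          intro h _
          ring
      _ = 0 := by simp [h0]
  rw [hcdef, pair_mul] at h2
  have p3 : 0 < nD := sum_P_pos (Stab B T.b)
  clear_value nD
  have h3 : ∑ k, ∑ r, (M (Stab B col)).coeff k * (P (Stab B row)).coeff r *
      (nD * nD * WW T B Gam (l ∘ ((k * r)⁻¹ : Perm Ω))) =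
      (∑ k, (P (Stab B col)).coeff k) * (∑ r, (P (Stab B row)).coeff r) *
        (nD * nD * WW T B Gam l) := by
    rw [Finset.sum_mul_sum univ univ (fun k => (P (Stab B col)).coeff k), Finset.sum_mul]
    apply Finset.sum_congr rfl
    intro k _
    rw [Finset.sum_mul]
    apply Finset.sum_congr rfl
    intro r _
    simp only [M_coeff, P_coeff]
    split_ifs with c1 c2
    · have e1 : l ∘ ((k * r)⁻¹ : Perm Ω) = l ∘ (k⁻¹ : Perm Ω) := by
        funext x
        simp only [hl, Function.comp, mul_inv_rev, Perm.mul_apply,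
          ((Stab B row).inv_mem c2).2 _]
      rw [e1, WW_col T s mono _ ((Stab B col).inv_mem c1) l hgood, sg_inv]
      linear_combination (nD * nD * WW T B Gam l) * sg_sq k
    all_goals simp
  rw [h3] at h2
  have p1 := sum_P_pos (Stab B col)
  have p2 := sum_P_pos (Stab B row)
  simp only [mul_eq_zero] at h2
  omega

end

end Vale.Agent.P197
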