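import Mathlib

/-! Combinatorics of Young diagrams. -/

namespace Vale.Agent.P197

open Finset

lemma interm (μ0 : YoungDiagram) (n : ℕ) (h0 : μ0.card ≤ n) :
    ∀ μ : YoungDiagram, μ0.cells ⊆ μ.cells → n ≤ μ.card →
      ∃ μ' : YoungDiagram, μ0.cells ⊆ μ'.cells ∧ μ'.cells ⊆ μ.cells ∧ μ'.card = n := by
  intro μ
  induction' hN : μ.card using Nat.strong_induction_on with N ih generalizing μ
  intro h1 h2
  by_cases h3 : N = n
  · exact ⟨μ, h1, Subset.refl _, hN.trans h3⟩
  have hne : (μ.cells \ μ0.cells).Nonempty := by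
    rw [Finset.sdiff_nonempty]
    intro h
    have := Finset.card_le_card h
    simp only [YoungDiagram.card] at *
    omega
  obtain ⟨c, hc, hmax⟩ := Finset.exists_max_image _ (fun c : ℕ × ℕ => c.1 + c.2) hne
  obtain ⟨hc1, hc2⟩ := Finset.mem_sdiff.1 hc
  let ν : YoungDiagram := ⟨μ.cells.erase c, by
    intro a b hba ha
    simp only [coe_erase, Set.mem_diff, mem_coe, Set.mem_singleton_iff] at ha ⊢
    refine ⟨μ.isLowerSet hba ha.1, ?_⟩
    rintro rfl
    have h4 : a ∉ μ0.cells := fun h => hc2 (μ0.isLowerSet hba h)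
    have h5 := hmax a (Finset.mem_sdiff.2 ⟨ha.1, h4⟩)
    apply ha.2
    have h6 := hba.1
    have h7 := hba.2
    ext <;> omega⟩
  have hν : ν.card = N - 1 := by
    simp only [YoungDiagram.card, ν] at hN ⊢
    rw [Finset.card_erase_of_mem hc1, hN]
  obtain ⟨μ', a1, a2, a3⟩ := ih (N - 1) (by omega) ν hν (by
    intro x hx
    exact Finset.mem_erase.2 ⟨fun h => hc2 (h ▸ hx), h1 hx⟩) (by omega)
  exact ⟨μ', a1, a2.trans (Finset.erase_subset _ _), a3⟩

lemma shrink (μ : YoungDiagram) (n : ℕ) (h1 : n ≤ μ.card)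
    (h2 : μ.card ≤ n + (μ.cells.filter fun c => c.1 < 4).card) :
    ∃ μ' : YoungDiagram, μ'.cells ⊆ μ.cells ∧ μ'.card = n ∧
      ∀ c : ℕ × ℕ, (c.1 + 4, c.2) ∈ μ → c ∈ μ' := by
  let μ0 : YoungDiagram := ⟨μ.cells.filter fun c => (c.1 + 4, c.2) ∈ μ, by
    intro a b hba ha
    simp only [coe_filter, Set.mem_setOf_eq] at ha ⊢
    exact ⟨μ.isLowerSet hba ha.1, μ.up_left_mem (by have := hba.1; omega) hba.2 ha.2⟩⟩
  have h3 : μ0.card ≤ (μ.cells.filter fun c => ¬ c.1 < 4).card := by
    apply Finset.card_le_card_of_injOn (fun c => (c.1 + 4, c.2))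
    · intro c hc
      simp only [μ0, coe_filter, Set.mem_setOf_eq] at hc ⊢
      exact ⟨hc.2, by omega⟩
    · intro a _ b _ hab
      simp only [Prod.mk.injEq] at hab
      ext <;> omega
  have h4 := Finset.card_filter_add_card_filter_not (s := μ.cells) (fun c => c.1 < 4)
  obtain ⟨μ', a1, a2, a3⟩ := interm μ0 n (by simp only [YoungDiagram.card] at *; omega) μ
    (Finset.filter_subset _ _) h1
  refine ⟨μ', a2, a3, fun c hc => a1 ?_⟩
  simp only [μ0, mem_filter]
  exact ⟨μ.up_left_mem (by omega) le_rfl hc, hc⟩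

lemma four_rows (μ : YoungDiagram) : 4 * μ.rowLen 3 ≤ (μ.cells.filter fun c => c.1 < 4).card := by
  have : (range 4 ×ˢ range (μ.rowLen 3)) ⊆ μ.cells.filter fun c => c.1 < 4 := by
    intro c hc
    simp only [mem_product, mem_range, mem_filter] at hc ⊢
    refine ⟨?_, hc.1⟩
    have := YoungDiagram.mem_iff_lt_rowLen.2 hc.2
    exact μ.up_left_mem (by omega) le_rfl this
  simpa using Finset.card_le_card this

lemma four_cols (μ : YoungDiagram) : 4 * μ.colLen 3 ≤ (μ.cells.filter fun c => c.2 < 4).card := by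
  have : (range (μ.colLen 3) ×ˢ range 4) ⊆ μ.cells.filter fun c => c.2 < 4 := by
    intro c hc
    simp only [mem_product, mem_range, mem_filter] at hc ⊢
    refine ⟨?_, hc.2⟩
    have := YoungDiagram.mem_iff_lt_colLen.2 hc.1
    exact μ.up_left_mem le_rfl (by omega) this
  simpa [mul_comm] using Finset.card_le_card this

lemma four (μ : YoungDiagram) (k : ℕ) (hk : 2 * μ.card = k * (k + 1)) :
    2 * k ≤ (μ.cells.filter fun c => c.1 < 4).card + 1 ∨
      2 * k ≤ (μ.cells.filter fun c => c.2 < 4).card + 1 := by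
  by_contra hc
  push Not at hc
  obtain ⟨h1, h2⟩ := hc
  set R := μ.cells.filter fun c => c.1 < 4 with hR
  set C := μ.cells.filter fun c => c.2 < 4 with hC
  by_cases h44 : (4, 4) ∈ μ
  · have a1 := four_rows μ
    have a2 := four_cols μ
    have a3 : 4 < μ.rowLen 3 :=
      YoungDiagram.mem_iff_lt_rowLen.1 (μ.up_left_mem (by omega) le_rfl h44)
    have a4 : μ.cells ⊆ R ∪ C ∪ (range (μ.colLen 3) ×ˢ range (μ.rowLen 3)) := by
      intro c hc
      simp only [hR, hC, mem_union, mem_filter, mem_product, mem_range]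
      by_cases b1 : c.1 < 4
      · exact Or.inl (Or.inl ⟨hc, b1⟩)
      by_cases b2 : c.2 < 4
      · exact Or.inl (Or.inr ⟨hc, b2⟩)
      right
      exact ⟨YoungDiagram.mem_iff_lt_colLen.1 (μ.up_left_mem le_rfl (by omega) hc),
        YoungDiagram.mem_iff_lt_rowLen.1 (μ.up_left_mem (by omega) le_rfl hc)⟩
    have a5 := (Finset.card_le_card a4).trans (Finset.card_union_le _ _)
    have a6 := Finset.card_union_le R C
    simp only [card_product, card_range] at a5
    rw [← hR] at a1
    rw [← hC] at a2
    simp only [YoungDiagram.card] at hk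
    generalize μ.colLen 3 = b at *
    generalize μ.rowLen 3 = a at *
    have b1 : 2 * a + 1 ≤ k := by omega
    have b2 : 2 * b + 1 ≤ k := by omega
    have b3 : (2 * a + 1) * (2 * b + 1) ≤ k * k := Nat.mul_le_mul b1 b2
    have b4 : 11 ≤ k := by omega
    have b5 : 11 * k ≤ k * k := Nat.mul_le_mul_right k b4
    have b6 : 4 * (a * b) + 2 * k ≤ k * k + 1 := by
      obtain ⟨j, rfl⟩ : ∃ j, k = j + 1 := ⟨k - 1, by omega⟩
      have : (2 * a) * (2 * b) ≤ j * j := Nat.mul_le_mul (by omega) (by omega)
      nlinarith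
    nlinarith
  · have a1 : R ∪ C = μ.cells := by
      ext c
      simp only [hR, hC, mem_union, mem_filter]
      constructor
      · rintro (h | h) <;> exact h.1
      · intro hc
        by_cases b1 : c.1 < 4
        · exact Or.inl ⟨hc, b1⟩
        by_cases b2 : c.2 < 4
        · exact Or.inr ⟨hc, b2⟩
        exact absurd (μ.up_left_mem (by omega) (by omega) hc) h44
    have a2 := Finset.card_union_add_card_inter R C
    simp only [YoungDiagram.card] at hk
    by_cases h40 : (4, 0) ∈ μ
    · have a3 : (range 4 ×ˢ range 1) ⊆ R ∩ C := by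
        intro c hc
        simp only [hR, hC, mem_product, mem_range, mem_filter, mem_inter] at hc ⊢
        have : c ∈ μ.cells := μ.up_left_mem (i2 := 4) (j2 := 0) (by omega) (by omega) h40
        exact ⟨⟨this, hc.1⟩, this, by omega⟩
      have a4 := Finset.card_le_card a3
      simp only [card_product, card_range] at a4
      rw [a1] at a2
      have : (0 : ℤ) ≤ (k - 3) * (k - 4) := by
        rcases le_or_gt (k : ℤ) 3 with h | h <;> nlinarith
      zify at *
      nlinarith
    · have a3 : R = μ.cells := by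
        apply Finset.filter_true_of_mem
        intro c hc
        by_contra b1
        exact h40 (μ.up_left_mem (by omega) (by omega) hc)
      rw [a3] at h1
      have : (0 : ℤ) ≤ (k - 1) * (k - 2) := by
        rcases le_or_gt (k : ℤ) 1 with h | h <;> nlinarith
      zify at *
      nlinarith

lemma mono_bij {α β : Type} [DecidableEq α] [DecidableEq β] [Inhabited β] (p : α → ℤ) (q : β → ℕ)
    (B : Finset α) : (∀ x ∈ B, ∀ y ∈ B, p x = p y → x = y) → ∀ θ : Finset β, B.card = θ.card →
      ∃ f : α → β, Set.BijOn f B θ ∧ ∀ x ∈ B, ∀ y ∈ B, p x ≤ p y → q (f x) ≤ q (f y) := by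
  induction B using Finset.induction_on_max_value p with
  | empty =>
    intro _ θ h
    have : θ = ∅ := by simpa using h.symm
    subst this
    exact ⟨fun _ => default, by simp, by simp⟩
  | insert v S hvS hmax ih =>
    intro hinj θ h
    rw [Finset.card_insert_of_notMem hvS] at h
    have hne : θ.Nonempty := by
      rw [← Finset.card_pos]; omega
    obtain ⟨c, hc, hcmax⟩ := Finset.exists_max_image θ q hne
    obtain ⟨f, hf, hmono⟩ := ih
      (fun x hx y hy => hinj x (mem_insert_of_mem hx) y (mem_insert_of_mem hy)) (θ.erase c)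
      (by rw [Finset.card_erase_of_mem hc]; omega)
    have e1 : ∀ x ∈ S, Function.update f v c x = f x := fun x hx =>
      Function.update_of_ne (by rintro rfl; exact hvS hx) _ _
    refine ⟨Function.update f v c, ?_, ?_⟩
    · have e2 : Set.BijOn (Function.update f v c) S (θ.erase c : Finset β) :=
        hf.congr fun x hx => (e1 x hx).symm
      have e3 := e2.insert (a := v) (by simp)
      simp only [Function.update_self] at e3
      rw [coe_insert]
      convert e3 using 1
      rw [← coe_insert, Finset.insert_erase hc]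
    · intro x hx y hy hxy
      rcases mem_insert.1 hy with rfl | hy'
      · rw [Function.update_self]
        rcases mem_insert.1 hx with rfl | hx'
        · rw [Function.update_self]
        · rw [e1 x hx']
          exact hcmax _ (Finset.mem_of_mem_erase (hf.mapsTo hx'))
      · rcases mem_insert.1 hx with rfl | hx'
        · have := hinj x hx y hy (le_antisymm hxy (hmax y hy'))
          subst this
          exact absurd hy' hvS
        · rw [e1 x hx', e1 y hy']
          exact hmono x hx' y hy' hxy

end Vale.Agent.P197
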