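import Vale.Agent.P197.Tri

/-! Double layers, paths and the generation lemma. -/

namespace Vale.Agent.P197

open Equiv Finset
open scoped Classical

noncomputable section

variable {Ω : Type} [Fintype Ω] [DecidableEq Ω] {m : ℕ}

/-- Index of the double layer. -/
def Tri.blk (T : Tri Ω m) (x : Ω) : ℕ := T.b x / 2
/-- Row and double layer. -/
def Tri.fR (T : Tri Ω m) (x : Ω) : ℕ × ℕ := (T.a x, T.blk x)
/-- Position along the zigzag path. -/
def Tri.pos (T : Tri Ω m) (x : Ω) : ℤ := (T.c x : ℤ) - T.a x
/-- Product of two-column Young symmetrizers. -/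
def Tri.cH (T : Tri Ω m) (A : Finset Ω) : GA Ω := M (Stab A T.b) * P (Stab A T.fR)

@[simp] lemma Tri.sac_blk (T : Tri Ω m) : T.sac.blk = T.blk := rfl
@[simp] lemma Tri.sac_a (T : Tri Ω m) : T.sac.a = T.c := rfl
@[simp] lemma Tri.sac_b (T : Tri Ω m) : T.sac.b = T.b := rfl
@[simp] lemma Tri.sac_c (T : Tri Ω m) : T.sac.c = T.a := rfl

lemma Tri.pos_inj (T : Tri Ω m) {x y : Ω} (h1 : T.blk x = T.blk y) (h2 : T.pos x = T.pos y) :
    x = y := by
  have := T.sum x
  have := T.sum y
  simp only [Tri.blk, Tri.pos] at h1 h2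
  apply T.inj <;> omega

lemma Tri.partner (T : Tri Ω m) {x v : Ω} (h1 : T.blk x = T.blk v) (h2 : T.pos x < T.pos v) :
    ∃ v', T.blk v' = T.blk v ∧ T.pos v' + 1 = T.pos v ∧ (T.a v' = T.a v ∨ T.c v' = T.c v) := by
  have := T.sum x
  have := T.sum v
  simp only [Tri.blk, Tri.pos] at h1 h2 ⊢
  by_cases hp : T.b v % 2 = 0
  · obtain ⟨y, e1, e2⟩ := T.surj (T.a v) (T.b v + 1) (by omega)
    have := T.sum y
    exact ⟨y, by omega, by omega, Or.inl e1⟩
  · obtain ⟨y, e1, e2⟩ := T.surj (T.a v + 1) (T.b v - 1) (by omega)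
    have := T.sum y
    exact ⟨y, by omega, by omega, Or.inr (by omega)⟩

lemma Stab_b_le (T : Tri Ω m) (A : Finset Ω) : Stab A T.b ≤ Stab A T.blk :=
  fun _ hg => ⟨hg.1, fun x => by simp only [Tri.blk, hg.2 x]⟩

lemma Stab_fR_le (T : Tri Ω m) (A : Finset Ω) : Stab A T.fR ≤ Stab A T.blk :=
  fun _ hg => ⟨hg.1, fun x => congrArg Prod.snd (hg.2 x)⟩

lemma Tri.sup_cH (T : Tri Ω m) (A : Finset Ω) : Sup (Stab A T.blk) (T.cH A) :=
  ((sup_M _).mono (Stab_b_le T A)).mul ((sup_P _).mono (Stab_fR_le T A))

/-- Relations satisfied by the two-column Specht module. -/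
def Rel (T : Tri Ω m) (F : Perm Ω → ℤ) : Prop :=
  (∀ u v, T.blk u = T.blk v → T.a u = T.a v → ∀ g, F (g * swap u v) = F g) ∧
  (∀ u v y, u ≠ v → T.blk u = T.blk v → T.a u = T.a v → T.blk y = T.blk v → y ≠ u → y ≠ v →
    ∀ g, F g + F (g * swap u y) + F (g * swap v y) = 0)

lemma s3 {u v y : Ω} (huv : u ≠ v) (hyu : y ≠ u) (hyv : y ≠ v) :
    let S : GA Ω := (1 + e (swap u v)) * (1 + e (swap u y) + e (swap v y))
    e (swap u v) * S = S ∧ e (swap u y) * S = S ∧ e (swap v y) * S = S := by
  intro S
  have h1 : swap u y * swap v y = swap u v * swap u y := by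
    ext x; simp only [Perm.mul_apply, swap_apply_def]; split_ifs <;> simp_all
  have h2 : swap u y * swap u v = swap u v * swap v y := by
    ext x; simp only [Perm.mul_apply, swap_apply_def]; split_ifs <;> simp_all
  have h3 : swap v y * swap u v = swap u v * swap u y := by
    ext x; simp only [Perm.mul_apply, swap_apply_def]; split_ifs <;> simp_all
  have h4 : swap v y * swap u y = swap u v * swap v y := by
    ext x; simp only [Perm.mul_apply, swap_apply_def]; split_ifs <;> simp_all
  have h5 : swap u y * (swap u v * swap u y) = swap v y := by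
    rw [← h1, ← mul_assoc, swap_mul_self, one_mul]
  have h6 : swap u y * (swap u v * swap v y) = swap u v := by
    rw [← h2, ← mul_assoc, swap_mul_self, one_mul]
  have h7 : swap v y * (swap u v * swap u y) = swap u v := by
    rw [← h3, ← mul_assoc, swap_mul_self, one_mul]
  have h8 : swap v y * (swap u v * swap v y) = swap u y := by
    rw [← h4, ← mul_assoc, swap_mul_self, one_mul]
  refine ⟨?_, ?_, ?_⟩
  · simp only [S, mul_add, add_mul, mul_one, one_mul, e_mul_e, ← mul_assoc, swap_mul_self, e_one]
    abel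
  · simp only [S, mul_add, add_mul, mul_one, one_mul, e_mul_e, swap_mul_self, e_one, h1, h2,
      h5, h6]
    abel
  · simp only [S, mul_add, add_mul, mul_one, one_mul, e_mul_e, swap_mul_self, e_one, h3, h4,
      h7, h8]
    abel

lemma Tri.cH_swap (T : Tri Ω m) {u v : Ω} (h1 : T.blk u = T.blk v) (h2 : T.a u = T.a v) :
    T.cH univ * e (swap u v) = T.cH univ := by
  rw [Tri.cH, mul_assoc, P_mul_e]
  exact swap_mem_St (by simp [Tri.fR, h1, h2])

lemma Tri.cH_three (T : Tri Ω m) {u v y : Ω} (huv : u ≠ v) (h1 : T.blk u = T.blk v)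
    (h2 : T.a u = T.a v) (h3 : T.blk y = T.blk v) (hyu : y ≠ u) (hyv : y ≠ v) :
    T.cH univ * (1 + e (swap u y) + e (swap v y)) = 0 := by
  obtain ⟨s1, s2, s3⟩ := s3 huv hyu hyv
  apply eq_zero_of_eq_neg
  rw [← add_eq_zero_iff_eq_neg]
  calc _ = T.cH univ * ((1 + e (swap u v)) * (1 + e (swap u y) + e (swap v y))) := by
        rw [← mul_assoc, mul_add (T.cH univ) 1, T.cH_swap h1 h2, mul_one, add_mul]
    _ = 0 := by
        rw [Tri.cH, expand (P (Stab univ T.fR))]
        simp only [Finset.mul_sum, Finset.sum_mul, mul_smul_comm, smul_mul_assoc]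
        apply Finset.sum_eq_zero
        intro r _
        by_cases hr : r ∈ Stab univ T.fR
        · have b1 := (Stab_fR_le T univ hr).2 u
          have b2 := (Stab_fR_le T univ hr).2 v
          have b3 := (Stab_fR_le T univ hr).2 y
          simp only [Tri.blk] at b1 b2 b3 h1 h3
          have : T.b (r u) = T.b (r v) ∨ T.b (r u) = T.b (r y) ∨ T.b (r v) = T.b (r y) := by omega
          rcases this with h | h | h
          · rw [M_kill (S := Stab univ T.b) huv (swap_mem_St h) s1, smul_zero]
          · rw [M_kill (S := Stab univ T.b) hyu.symm (swap_mem_St h) s2, smul_zero]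
          · rw [M_kill (S := Stab univ T.b) hyv.symm (swap_mem_St h) s3, smul_zero]
        · simp [P_coeff, hr]

lemma gen_step {β : Ω → ℕ} {S : Finset Ω} {v v' : Ω} (hv : v ∈ S) (hv' : v' ∈ S)
    (hb : β v' = β v) {E : Perm Ω → Prop} (hinv : ∀ h, E (h * swap v v') → E h)
    (h3 : ∀ h y, β y = β v → y ≠ v → y ≠ v' → E (h * swap v y) → E (h * swap v' y) → E h)
    (hfix : ∀ h ∈ Stab S β, h v = v → E h) : ∀ h ∈ Stab S β, E h := by
  have c1 : ∀ h ∈ Stab S β, h v' = v → E h := by
    intro h hh hv1
    apply hinv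
    apply hfix _ ((Stab S β).mul_mem hh (swap_mem_Stab hv hv' hb.symm))
    simp [hv1]
  intro h hh
  obtain ⟨y, hy⟩ := h.surjective v
  have hyS : y ∈ S := (Fx_map_mem (Stab_le_Fx hh) y).1 (hy ▸ hv)
  have hby : β y = β v := by rw [← hh.2 y, hy]
  by_cases e1 : y = v
  · exact hfix h hh (by rw [← e1] at hy ⊢; exact hy)
  by_cases e2 : y = v'
  · exact c1 h hh (e2 ▸ hy)
  apply h3 h y hby e1 e2
  · apply hfix _ ((Stab S β).mul_mem hh (swap_mem_Stab hv hyS hby.symm))
    simp [hy]
  · apply c1 _ ((Stab S β).mul_mem hh (swap_mem_Stab hv' hyS (hb.trans hby.symm)))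
    simp [hy]

/-- Downward closed along the paths. -/
def Closed (T : Tri Ω m) (S : Finset Ω) : Prop :=
  ∀ v ∈ S, ∀ x, T.blk x = T.blk v → T.pos x < T.pos v → x ∈ S

lemma Closed.of_insert {T : Tri Ω m} {S : Finset Ω} {v : Ω} (h : Closed T (insert v S))
    (hmax : ∀ x ∈ S, T.pos x ≤ T.pos v) : Closed T S := by
  intro u hu x h1 h2
  have := h u (mem_insert_of_mem hu) x h1 h2
  rcases mem_insert.1 this with rfl | h3
  · have := hmax u hu; omega
  · exact h3

/-- The generation lemma. -/
lemma generation (T : Tri Ω m) (Z : Perm Ω → Perm Ω → ℤ) (h1 : ∀ g2, Rel T fun g1 => Z g1 g2)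
    (h2 : ∀ g1, Rel T.sac (Z g1)) (h0 : ∀ g, Even (Z g g)) :
    ∀ h ∈ St T.blk, ∀ g, Even (Z g (g * h)) := by
  have key : ∀ S : Finset Ω, Closed T S → ∀ h ∈ Stab S T.blk, ∀ g, Even (Z g (g * h)) := by
    intro S
    induction S using Finset.induction_on_max_value T.pos with
    | empty =>
      intro _ h hh g
      have : h = 1 := by
        ext x; exact hh.1 x (by simp)
      rw [this, mul_one]
      exact h0 g
    | insert v S hvS hmax ih =>
      intro hcl
      have ih' := ih (hcl.of_insert hmax)
      have hfix : ∀ h ∈ Stab (insert v S) T.blk, h v = v → ∀ g, Even (Z g (g * h)) := by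
        intro h hh hv
        apply ih' h
        refine ⟨fun x hx => ?_, hh.2⟩
        by_cases e1 : x = v
        · rw [e1, hv]
        · exact hh.1 x (by simp [e1, hx])
      intro h hh
      by_cases hv : h v = v
      · exact hfix h hh hv
      have hy : h v ∈ S := by
        have := (Fx_map_mem (Stab_le_Fx hh) v).2 (mem_insert_self _ _)
        rcases mem_insert.1 this with e1 | e1
        · exact absurd e1 hv
        · exact e1
      have hlt : T.pos (h v) < T.pos v := by
        rcases lt_or_eq_of_le (hmax _ hy) with e1 | e1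
        · exact e1
        · exact absurd (T.pos_inj (hh.2 v) e1) hv
      obtain ⟨v', hb, hp, hpair⟩ := T.partner (hh.2 v) hlt
      have hv' : v' ∈ insert v S := hcl v (mem_insert_self _ _) v' hb (by omega)
      have hne : v ≠ v' := by
        rintro rfl; omega
      rcases hpair with ha | hc
      · have := gen_step (β := T.blk) (E := fun h => ∀ g, Even (Z (g * h) g))
          (mem_insert_self v S) hv' hb ?_ ?_ ?_ h⁻¹ ((Stab _ _).inv_mem hh)
        · intro g
          simpa using this (g * h)
        · intro k hk g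
          have := (h1 g).1 v v' hb.symm ha.symm (g * k)
          simp only at this
          rw [← this, mul_assoc]
          exact hk g
        · intro k y hby hyv hyv' k1 k2 g
          have := (h1 g).2 v v' y hne hb.symm ha.symm (hby.trans hb.symm) hyv hyv' (g * k)
          simp only [mul_assoc] at this
          have e1 := k1 g
          have e2 := k2 g
          rw [Int.even_iff] at *
          omega
        · intro k hk hkv g
          have := hfix k⁻¹ ((Stab _ _).inv_mem hk) (by rw [Perm.inv_eq_iff_eq, hkv]) (g * k)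
          simpa using this
      · refine gen_step (β := T.blk) (E := fun h => ∀ g, Even (Z g (g * h)))
          (mem_insert_self v S) hv' hb ?_ ?_ hfix h hh
        · intro k hk g
          have := (h2 g).1 v v' hb.symm hc.symm (g * k)
          rw [← this, mul_assoc]
          exact hk g
        · intro k y hby hyv hyv' k1 k2 g
          have := (h2 g).2 v v' y hne hb.symm hc.symm (hby.trans hb.symm) hyv hyv' (g * k)
          simp only [mul_assoc] at this
          have e1 := k1 g
          have e2 := k2 g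
          rw [Int.even_iff] at *
          omega
  exact key univ (fun _ _ _ _ _ => mem_univ _)

end

end Vale.Agent.P197
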