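import Vale.Agent.P197.Block
import Vale.Agent.P197.Comb

/-! Induction over the double layers. -/

namespace Vale.Agent.P197

open Equiv Finset
open scoped Classical

noncomputable section

variable {Ω : Type} [Fintype Ω] [DecidableEq Ω] {m : ℕ}

lemma Stab_congr {α : Type} {A : Finset Ω} {f f' : Ω → α} (h : ∀ x ∈ A, f x = f' x) :
    Stab A f = Stab A f' := by
  have key : ∀ {f f' : Ω → α}, (∀ x ∈ A, f x = f' x) → Stab A f ≤ Stab A f' := by
    intro f f' h g hg
    refine ⟨hg.1, fun x => ?_⟩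
    by_cases hx : x ∈ A
    · rw [← h x hx, ← h _ ((Fx_map_mem (Stab_le_Fx hg) x).2 hx), hg.2]
    · rw [hg.1 x hx]
  exact le_antisymm (key h) (key fun x hx => (h x hx).symm)

lemma mem_Stab_empty {α : Type} {f : Ω → α} {g : Perm Ω} : g ∈ Stab ∅ f ↔ 1 = g := by
  constructor
  · intro h
    ext x
    exact (h.1 x (by simp)).symm
  · rintro rfl
    exact Subgroup.one_mem _

lemma M_empty {α : Type} (f : Ω → α) : M (Stab ∅ f) = 1 := by
  apply ga_ext
  intro g
  rw [← e_one, e_coeff, M_coeff]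
  simp only [mem_Stab_empty]
  split_ifs with h
  · rw [← h, sg_one]
  · rfl

lemma P_empty {α : Type} (f : Ω → α) : P (Stab ∅ f) = 1 := by
  apply ga_ext
  intro g
  rw [← e_one, e_coeff, P_coeff]
  simp only [mem_Stab_empty]

lemma InY.sup {T : Tri Ω m} {A : Finset Ω} {y : GA Ω} (h : InY T A y) : Sup (Fx A) y := by
  obtain ⟨χ, -, -, h1, hh1, h2, -, hy⟩ := h
  intro g hg
  rw [hy] at hg
  have := T.sup_cH A _ (right_ne_zero_of_mul (left_ne_zero_of_mul hg))
  exact Stab_le_Fx (by simpa using (Stab A T.blk).mul_mem ((Stab A T.blk).inv_mem hh1) this)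

lemma InY.tw {T : Tri Ω m} {A : Finset Ω} {y : GA Ω} (h : InY T A y) : InY T A (tw y) := by
  obtain ⟨χ, c1, c2, h1, hh1, h2, hh2, hy⟩ := h
  refine ⟨fun g => sg g * χ g, fun g => ?_, fun g hg g' hg' => ?_, h1, hh1, h2, hh2, fun g => ?_⟩
  · rcases c1 g with h | h <;> rcases sg_cases g with h' | h' <;> simp [h, h']
  · beta_reduce
    rw [c2 g hg g' hg', sg_mul]; ring
  · simp only [P197.tw, coeff_mk, hy]; ring

lemma inY_empty (T : Tri Ω m) : InY T ∅ 1 := by
  refine ⟨fun _ => 1, fun _ => Or.inl rfl, fun _ _ _ _ => rfl, 1, Subgroup.one_mem _, 1,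
    Subgroup.one_mem _, fun g => ?_⟩
  simp only [Tri.cH, M_empty, P_empty, one_mul]
  rw [← e_one, e_coeff]
  split_ifs <;> rfl

lemma cH_union (T : Tri Ω m) {A B : Finset Ω} (hAB : Disjoint A B)
    (hP : Stab (A ∪ B) T.blk ≤ YS A B) : T.cH (A ∪ B) = T.cH A * T.cH B := by
  have e1 : M (Stab (A ∪ B) T.b) = M (Stab A T.b) * M (Stab B T.b) := by
    apply ga_ext
    intro g
    by_cases hg : g ∈ YS A B
    · exact M_union_coeff hAB _ hg
    · have a1 : (M (Stab (A ∪ B) T.b)).coeff g = 0 := by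
        by_contra hc; exact hg (hP (Stab_b_le T _ (sup_M _ g hc)))
      have a2 : (M (Stab A T.b) * M (Stab B T.b)).coeff g = 0 := by
        by_contra hc
        exact hg (sup_mul_disj hAB ((sup_M _).mono Stab_le_Fx) ((sup_M _).mono Stab_le_Fx) g hc)
      rw [a1, a2]
  have e2 : P (Stab (A ∪ B) T.fR) = P (Stab A T.fR) * P (Stab B T.fR) := by
    apply ga_ext
    intro g
    by_cases hg : g ∈ YS A B
    · exact P_union_coeff hAB _ hg
    · have a1 : (P (Stab (A ∪ B) T.fR)).coeff g = 0 := by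
        by_contra hc; exact hg (hP (Stab_fR_le T _ (sup_P _ g hc)))
      have a2 : (P (Stab A T.fR) * P (Stab B T.fR)).coeff g = 0 := by
        by_contra hc
        exact hg (sup_mul_disj hAB ((sup_P _).mono Stab_le_Fx) ((sup_P _).mono Stab_le_Fx) g hc)
      rw [a1, a2]
  have := comm_disj hAB ((sup_P (Stab A T.fR)).mono Stab_le_Fx)
    ((sup_M (Stab B T.b)).mono Stab_le_Fx)
  simp only [Tri.cH, e1, e2]
  calc _ = M (Stab A T.b) * (M (Stab B T.b) * P (Stab A T.fR)) * P (Stab B T.fR) := by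
        simp only [mul_assoc]
    _ = _ := by rw [← this]; simp only [mul_assoc]

lemma sup_block (T : Tri Ω m) {B : Finset Ω} {g1 : Perm Ω} (hg1 : g1 ∈ Fx B) (g2 : Perm Ω) :
    Sup (Fx B) (mk fun h => (T.cH B).coeff (g1 * h) * (T.sac.cH B).coeff (g2 * h)) := by
  intro g hg
  have := Stab_le_Fx (T.sup_cH B _ (left_ne_zero_of_mul hg))
  simpa using (Fx B).mul_mem ((Fx B).inv_mem hg1) this

lemma InY.union {T : Tri Ω m} {A B : Finset Ω} (hAB : Disjoint A B)
    (hP : Stab (A ∪ B) T.blk ≤ YS A B) (hB : Fx B ≤ Stab B T.blk) {y : GA Ω} (h : InY T A y)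
    {g1 g2 : Perm Ω} (hg1 : g1 ∈ Fx B) (hg2 : g2 ∈ Fx B) :
    InY T (A ∪ B) (y * mk fun h => (T.cH B).coeff (g1 * h) * (T.sac.cH B).coeff (g2 * h)) := by
  have hs := h.sup
  obtain ⟨χ, c1, c2, h1, hh1, h2, hh2, hy⟩ := h
  have m1 : h1 * g1 ∈ Stab (A ∪ B) T.blk :=
    (mul_mem_Stab_union hAB (Stab_le_Fx hh1) hg1).2 ⟨hh1, hB hg1⟩
  have m2 : h2 * g2 ∈ Stab (A ∪ B) T.blk :=
    (mul_mem_Stab_union hAB (Stab_le_Fx hh2) hg2).2 ⟨hh2, hB hg2⟩
  have shuffle : ∀ u ∈ Fx A, ∀ v ∈ Fx B, ∀ u' ∈ Fx A, ∀ v' : Perm Ω,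
      u * v * (u' * v') = (u * u') * (v * v') := by
    intro u _ v hv u' hu' v'
    rw [mul_assoc, ← mul_assoc v, ← fx_comm hAB hu' hv]
    simp only [mul_assoc]
  refine ⟨fun g => χ (res A g), fun g => c1 _, fun g hg g' hg' => ?_, h1 * g1, m1, h2 * g2, m2,
    fun g => ?_⟩
  · obtain ⟨u, hu, v, hv, rfl⟩ := dec (hP hg)
    obtain ⟨u', hu', v', hv', rfl⟩ := dec (hP hg')
    beta_reduce
    rw [shuffle u hu v hv u' hu' v', res_mul hAB hu hv, res_mul hAB hu' hv',
      res_mul hAB ((Fx A).mul_mem hu hu') ((Fx B).mul_mem hv hv')]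
    exact c2 u ((mul_mem_Stab_union hAB hu hv).1 hg).1 u' ((mul_mem_Stab_union hAB hu' hv').1 hg').1
  · by_cases hg : g ∈ YS A B
    · obtain ⟨u, hu, v, hv, rfl⟩ := dec hg
      beta_reduce
      rw [coeff_mul_disj hAB hs (sup_block T hg1 g2) hu hv, res_mul hAB hu hv, hy,
        cH_union T hAB hP, cH_union T.sac hAB hP, shuffle h1 (Stab_le_Fx hh1) g1 hg1 u hu v,
        shuffle h2 (Stab_le_Fx hh2) g2 hg2 u hu v,
        coeff_mul_disj hAB ((T.sup_cH A).mono Stab_le_Fx) ((T.sup_cH B).mono Stab_le_Fx)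
          ((Fx A).mul_mem (Stab_le_Fx hh1) hu) ((Fx B).mul_mem hg1 hv),
        coeff_mul_disj hAB ((T.sac.sup_cH A).mono Stab_le_Fx) ((T.sac.sup_cH B).mono Stab_le_Fx)
          ((Fx A).mul_mem (Stab_le_Fx hh2) hu) ((Fx B).mul_mem hg2 hv), coeff_mk]
      ring
    · have a1 : (y * mk fun h => (T.cH B).coeff (g1 * h) * (T.sac.cH B).coeff (g2 * h)).coeff g
          = 0 := by
        by_contra hc
        exact hg (sup_mul_disj hAB hs (sup_block T hg1 g2) g hc)
      have a2 : (T.cH (A ∪ B)).coeff (h1 * g1 * g) = 0 := by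
        by_contra hc
        have := T.sup_cH _ _ hc
        exact hg (hP (((Stab _ _).mul_mem_cancel_left m1).1 this))
      rw [a1, a2]
      simp

/-- Union of the double layers from number `s` on. -/
def Tri.up (T : Tri Ω m) (s : ℕ) : Finset Ω := univ.filter fun x => s ≤ T.blk x

lemma Tri.mem_up {T : Tri Ω m} {s : ℕ} {x : Ω} : x ∈ T.up s ↔ s ≤ T.blk x := by
  simp [Tri.up]

lemma Tri.card_tri (T : Tri Ω m) (n : ℕ) (hn : n ≤ m) :
    2 * (univ.filter fun x => m ≤ T.b x + n).card = n * (n + 1) := by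
  induction n with
  | zero =>
    rw [Finset.filter_false_of_mem]
    · simp
    · intro x _
      have := T.sum x
      omega
  | succ n ih =>
    have e1 : (univ.filter fun x => m ≤ T.b x + (n + 1)) =
        (univ.filter fun x => m ≤ T.b x + n) ∪ univ.filter fun x => T.b x + (n + 1) = m := by
      ext x
      simp only [mem_filter, mem_univ, true_and, mem_union]
      omega
    have e2 : (univ.filter fun x => T.b x + (n + 1) = m).card = n + 1 := by
      conv_rhs => rw [← Finset.card_range (n + 1)]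
      apply Finset.card_bij (fun x _ => T.a x)
      · intro x hx
        have := T.sum x
        simp only [mem_filter, mem_univ, true_and, mem_range] at hx ⊢
        omega
      · intro x hx y hy h
        simp only [mem_filter, mem_univ, true_and] at hx hy
        exact T.inj x y h (by omega)
      · intro i hi
        obtain ⟨x, h1, h2⟩ := T.surj i (m - (n + 1)) (by simp only [mem_range] at hi; omega)
        exact ⟨x, by simp only [mem_filter, mem_univ, true_and]; omega, h1⟩
    rw [e1, Finset.card_union_of_disjoint, e2, mul_add, ih (by omega)]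
    · ring
    · rw [Finset.disjoint_left]
      intro x h1 h2
      simp only [mem_filter, mem_univ, true_and] at h1 h2
      omega

lemma Tri.card_up (T : Tri Ω m) (s : ℕ) :
    2 * (T.up s).card = (m - 2 * s) * (m - 2 * s + 1) := by
  rw [← T.card_tri (m - 2 * s) (by omega)]
  have : T.up s = univ.filter fun x => m ≤ T.b x + (m - 2 * s) := by
    ext x
    have := T.sum x
    simp only [Tri.mem_up, Tri.blk, mem_filter, mem_univ, true_and]
    have h1 : s ≤ T.b x / 2 ↔ 2 * s ≤ T.b x := by omega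
    rw [h1]
    generalize 2 * s = k
    omega
  rw [this]

/-- The inductive statement. -/
def Act (T : Tri Ω m) (A : Finset Ω) (μ : YoungDiagram) : Prop :=
  ∃ t : Ω → ℕ × ℕ, Set.BijOn t A μ.cells ∧ ∃ y, InY T A y ∧ ∃ g ∈ Fx A,
    y * e g * M (Stab A fun x => (t x).2) * P (Stab A fun x => (t x).1) ≠ 0

lemma Act.transpose {T : Tri Ω m} {A : Finset Ω} {μ : YoungDiagram} (h : Act T A μ.transpose) :
    Act T A μ := by
  obtain ⟨t, ht, y, hy, g, hg, hne⟩ := h
  obtain ⟨g', hg', hne'⟩ := transpose_act Stab_le_Fx Stab_le_Fx hg hne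
  refine ⟨fun x => (t x).swap, ?_, tw y, hy.tw, g', hg', hne'⟩
  have : Set.BijOn Prod.swap (μ.transpose.cells : Set (ℕ × ℕ)) μ.cells := by
    refine ⟨fun c hc => ?_, fun a _ b _ h => Prod.swap_injective h, fun c hc => ⟨c.swap, ?_, rfl⟩⟩
    · simpa using hc
    · simpa using hc
  exact this.comp ht

lemma act_step (T : Tri Ω m) (s : ℕ) (hs : 2 * s < m)
    (ih : ∀ μ : YoungDiagram, μ.card = (T.up (s + 1)).card → Act T (T.up (s + 1)) μ)
    (μ : YoungDiagram) (hμ : μ.card = (T.up s).card)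
    (h4 : 2 * (m - 2 * s) ≤ (μ.cells.filter fun c => c.1 < 4).card + 1) : Act T (T.up s) μ := by
  set A := T.up (s + 1) with hA
  set B := T.layer s with hB
  have hAB : Disjoint A B := by
    rw [Finset.disjoint_left]
    intro x h1 h2
    have := Tri.mem_up.1 h1
    have := Tri.mem_layer.1 h2
    omega
  have hU : T.up s = A ∪ B := by
    ext x
    simp only [hA, hB, mem_union, Tri.mem_up, Tri.mem_layer]
    omega
  have c1 := T.card_up s
  have c2 := T.card_up (s + 1)
  have c3 : (T.up s).card = A.card + B.card := by rw [hU, Finset.card_union_of_disjoint hAB]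
  have c4 : B.card + 1 = 2 * (m - 2 * s) := by
    rw [← hA] at c2
    rw [c3] at c1
    obtain ⟨k, hk⟩ : ∃ k, m - 2 * s = k + 1 := ⟨m - 2 * s - 1, by omega⟩
    rw [hk] at c1 ⊢
    rcases Nat.eq_zero_or_pos k with rfl | hk0
    · have : m - 2 * (s + 1) = 0 := by omega
      rw [this] at c2
      omega
    · obtain ⟨j, rfl⟩ : ∃ j, k = j + 1 := ⟨k - 1, by omega⟩
      have : m - 2 * (s + 1) = j := by omega
      rw [this] at c2
      nlinarith
  obtain ⟨μ', s1, s2, s3⟩ := shrink μ A.card (by omega) (by omega)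
  obtain ⟨t', ht', y, hy, g, hg, hne⟩ := ih μ' s2
  obtain ⟨f, hf, hmono⟩ := mono_bij T.pos (fun c : ℕ × ℕ => c.2) B
    (fun x hx y hy h => T.pos_inj (by rw [Tri.mem_layer.1 hx, Tri.mem_layer.1 hy]) h)
    (μ.cells \ μ'.cells) (by
      rw [Finset.card_sdiff_of_subset s1]
      simp only [YoungDiagram.card] at *
      omega)
  let t : Ω → ℕ × ℕ := fun x => if x ∈ B then f x else t' x
  have tA : ∀ x ∈ A, t x = t' x := fun x hx => if_neg (Finset.disjoint_left.1 hAB hx)
  have tB : ∀ x ∈ B, t x = f x := fun x hx => if_pos hx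
  have fB : ∀ x ∈ B, f x ∈ μ ∧ f x ∉ μ' := by
    intro x hx
    have := hf.mapsTo hx
    simpa using this
  obtain ⟨g1, hg1, g2, hg2, hz⟩ := block T s ⟨m - 2 * s - 1, by rw [← hB]; omega⟩
    (fun x => (t x).1) (fun x => (t x).2)
    (fun x hx y hy h => by rw [tB x hx, tB y hy]; exact hmono x hx y hy h)
    (fun x hx y hy hxy h => by
      rw [tB x hx, tB y hy] at h ⊢
      constructor
      · intro h'
        exact hxy (hf.injOn hx hy (Prod.ext h' h))
      · by_contra hc
        apply (fB y hy).2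
        apply s3
        exact μ.up_left_mem (i2 := (f x).1) (j2 := (f x).2) (by omega) h.ge (fB x hx).1)
  rw [hU]
  refine ⟨t, ?_, _, hy.union hAB ?_ ?_ hg1 hg2, g, Fx_mono Finset.subset_union_left hg, ?_⟩
  · have b1 : Set.BijOn t A μ'.cells := ht'.congr fun x hx => (tA x hx).symm
    have b2 : Set.BijOn t B (μ.cells \ μ'.cells : Finset (ℕ × ℕ)) :=
      hf.congr fun x hx => (tB x hx).symm
    have b3 := b1.union b2 (by
      intro x hx y hy hxy
      rcases hx with hx | hx <;> rcases hy with hy | hy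
      · exact b1.injOn hx hy hxy
      · have k1 := b1.mapsTo hx
        have k2 := b2.mapsTo hy
        rw [hxy] at k1
        exact absurd k1 (Finset.mem_sdiff.1 k2).2
      · have k1 := b1.mapsTo hy
        have k2 := b2.mapsTo hx
        rw [← hxy] at k1
        exact absurd k1 (Finset.mem_sdiff.1 k2).2
      · exact b2.injOn hx hy hxy)
    rw [← coe_union, ← coe_union, Finset.union_sdiff_of_subset s1] at b3
    exact b3
  · intro h hh
    refine ⟨Stab_le_Fx hh, mem_Pr.2 fun x => ?_⟩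
    simp only [hA, Tri.mem_up, hh.2 x]
  · intro h hh
    refine ⟨mem_Fx.1 hh, fun x => ?_⟩
    by_cases hx : x ∈ B
    · rw [Tri.mem_layer.1 hx, Tri.mem_layer.1 ((Fx_map_mem hh x).2 hx)]
    · rw [mem_Fx.1 hh x hx]
  · apply pieri_step hAB _ _ μ'.colLen _ _ hy.sup (sup_block T hg1 g2) hg _ hz
    · intro x hx
      rw [tA x hx]
      exact YoungDiagram.mem_iff_lt_colLen.1 (ht'.mapsTo hx)
    · intro x hx
      rw [tB x hx]
      by_contra hc
      exact (fB x hx).2 (YoungDiagram.mem_iff_lt_colLen.2 (by omega))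
    · rw [Stab_congr (f := fun x => (t x).2) (f' := fun x => (t' x).2)
        (fun x hx => by rw [tA x hx]), Stab_congr (f := fun x => (t x).1)
        (f' := fun x => (t' x).1) (fun x hx => by rw [tA x hx])]
      exact hne

lemma transpose_card (μ : YoungDiagram) : μ.transpose.card = μ.card := by
  simp [YoungDiagram.card, YoungDiagram.transpose]

theorem act_all (T : Tri Ω m) (n : ℕ) : ∀ s, s + n = m →
    ∀ μ : YoungDiagram, μ.card = (T.up s).card → Act T (T.up s) μ := by
  have base : ∀ s, ¬ 2 * s < m →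
      ∀ μ : YoungDiagram, μ.card = (T.up s).card → Act T (T.up s) μ := by
    intro s hs μ hμ
    have h0 : T.up s = ∅ := by
      have := T.card_up s
      rw [show m - 2 * s = 0 by omega] at this
      simpa using this
    rw [h0] at hμ ⊢
    have h1 : μ.cells = ∅ := by simpa [YoungDiagram.card] using hμ
    refine ⟨fun _ => (0, 0), by simp [h1], 1, inY_empty T, 1, Subgroup.one_mem _, ?_⟩
    simp [M_empty, P_empty]
  induction n with
  | zero => exact fun s hs => base s (by omega)
  | succ n ih =>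
    intro s hs μ hμ
    by_cases h : 2 * s < m
    · rcases four μ (m - 2 * s) (by rw [hμ, T.card_up]) with h4 | h4
      · exact act_step T s h (ih (s + 1) (by omega)) μ hμ h4
      · apply Act.transpose
        apply act_step T s h (ih (s + 1) (by omega)) _ (by rw [transpose_card, hμ])
        refine h4.trans (Nat.succ_le_succ ?_)
        apply Finset.card_le_card_of_injOn Prod.swap
        · intro c hc
          simpa using hc
        · intro a _ b _ h
          exact Prod.swap_injective h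
    · exact base s h μ hμ

lemma M_conj {α : Type} (f : Ω → α) (σ : Perm Ω) :
    M (St (f ∘ σ)) = e σ⁻¹ * M (St f) * e σ := by
  apply ga_ext
  intro g
  simp only [mul_e_coeff, e_mul_coeff, inv_inv, M_coeff, mem_St]
  have : (∀ x, (f ∘ σ) (g x) = (f ∘ σ) x) ↔ ∀ x, f ((σ * (g * σ⁻¹)) x) = f x := by
    constructor
    · intro h x
      simpa using h (σ⁻¹ x)
    · intro h x
      simpa using h (σ x)
  rw [if_congr this rfl rfl]
  congr 1
  rw [sg_mul, sg_mul, sg_inv]
  linear_combination (-sg g) * sg_sq σ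

lemma P_conj {α : Type} (f : Ω → α) (σ : Perm Ω) :
    P (St (f ∘ σ)) = e σ⁻¹ * P (St f) * e σ := by
  apply ga_ext
  intro g
  simp only [mul_e_coeff, e_mul_coeff, inv_inv, P_coeff, mem_St]
  have : (∀ x, (f ∘ σ) (g x) = (f ∘ σ) x) ↔ ∀ x, f ((σ * (g * σ⁻¹)) x) = f x := by
    constructor
    · intro h x
      simpa using h (σ⁻¹ x)
    · intro h x
      simpa using h (σ x)
  rw [if_congr this rfl rfl]

/-- The integral Young symmetrizer of a tableau. -/
def ys {μ : YoungDiagram} (t : Ω ≃ μ.cells) : GA Ω :=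
  M (St fun x => (t x).1.2) * P (St fun x => (t x).1.1)

lemma ys_conj {μ : YoungDiagram} (t : Ω ≃ μ.cells) (σ : Perm Ω) :
    ys (σ.trans t) = e σ⁻¹ * ys t * e σ := by
  have e1 := M_conj (fun x => (t x).1.2) σ
  have e2 := P_conj (fun x => (t x).1.1) σ
  calc ys (σ.trans t) = (e σ⁻¹ * M (St fun x => (t x).1.2) * e σ) *
        (e σ⁻¹ * P (St fun x => (t x).1.1) * e σ) := by rw [← e1, ← e2]; rfl
    _ = e σ⁻¹ * M (St fun x => (t x).1.2) * (e σ * e σ⁻¹) * P (St fun x => (t x).1.1) * e σ := by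
        simp only [mul_assoc]
    _ = _ := by rw [e_mul_e, mul_inv_cancel, e_one, ys]; simp only [mul_one, mul_assoc]

theorem saxl_int (T : Tri Ω m) {ν : YoungDiagram} (t : Ω ≃ ν.cells) :
    ∃ p1 p2 g1 g2, TT (ys t) (p1 * T.c0) (p2 * T.c0) g1 g2 ≠ 0 := by
  have hu : T.up 0 = univ := by
    ext x; simp [Tri.mem_up]
  have := act_all T m 0 (by simp) ν (by
    rw [hu, Finset.card_univ, Fintype.card_congr t]
    simp [YoungDiagram.card])
  rw [hu] at this
  obtain ⟨t', ht', y, hy, g, -, hne⟩ := this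
  have hb : Function.Bijective fun x => (⟨t' x, ht'.mapsTo (by simp)⟩ : ν.cells) := by
    constructor
    · intro x y h
      exact ht'.injOn (by simp) (by simp) (congrArg Subtype.val h)
    · intro c
      obtain ⟨x, -, hx⟩ := ht'.surjOn c.2
      exact ⟨x, Subtype.ext hx⟩
  let t2 : Ω ≃ ν.cells := Equiv.ofBijective _ hb
  have e1 : ys t2 = M (Stab univ fun x => (t' x).2) * P (Stab univ fun x => (t' x).1) := rfl
  have e2 : t2 = (t2.trans t.symm).trans t := by
    apply Equiv.ext
    intro x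
    simp
  rw [mul_assoc, ← e1, e2, ys_conj] at hne
  apply two_adic T hy (g0 := g * (t2.trans t.symm)⁻¹)
  intro h0
  apply hne
  rw [← mul_assoc, ← mul_assoc, mul_assoc y, e_mul_e, h0, zero_mul]

end

end Vale.Agent.P197
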