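import Vale.Agent.P197.Alg

/-! Disjoint supports, separation, and the Pieri step. -/

namespace Vale.Agent.P197

open Equiv Finset
open scoped Classical

noncomputable section

variable {Ω : Type} [Fintype Ω] [DecidableEq Ω]

/-- Permutations preserving a set. -/
def Pr (A : Finset Ω) : Subgroup (Perm Ω) := Stab univ (fun x => x ∈ A)

lemma mem_Pr {A : Finset Ω} {g : Perm Ω} : g ∈ Pr A ↔ ∀ x, g x ∈ A ↔ x ∈ A := by
  simp [Pr, mem_Stab]

lemma Fx_le_Pr {A : Finset Ω} : Fx A ≤ Pr A := fun _ hg => mem_Pr.2 (Fx_map_mem hg)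

lemma Fx_le_Pr' {A B : Finset Ω} (hAB : Disjoint A B) : Fx B ≤ Pr A := by
  intro g hg
  rw [mem_Pr]
  intro x
  by_cases hx : x ∈ B
  · have h1 : g x ∈ B := (Fx_map_mem hg x).2 hx
    constructor
    · intro h; exact absurd h1 (Finset.disjoint_left.1 hAB h)
    · intro h; exact absurd hx (Finset.disjoint_left.1 hAB h)
  · rw [mem_Fx.1 hg x hx]

/-- Restriction of a permutation to an invariant set. -/
def res (A : Finset Ω) (h : Perm Ω) : Perm Ω :=
  if hp : h ∈ Pr A then
    { toFun := fun x => if x ∈ A then h x else x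
      invFun := fun x => if x ∈ A then h⁻¹ x else x
      left_inv := by
        intro x
        by_cases hx : x ∈ A
        · simp [hx, (mem_Pr.1 hp x).2 hx]
        · simp [hx]
      right_inv := by
        intro x
        by_cases hx : x ∈ A
        · have := (mem_Pr.1 ((Pr A).inv_mem hp) x).2 hx
          simp only [hx, if_true, this]
          simp
        · simp [hx] }
  else 1

lemma res_apply {A : Finset Ω} {h : Perm Ω} (hp : h ∈ Pr A) (x : Ω) :
    res A h x = if x ∈ A then h x else x := by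
  simp [res, hp]

lemma res_mem {A : Finset Ω} {h : Perm Ω} (hp : h ∈ Pr A) : res A h ∈ Fx A := by
  rw [mem_Fx]
  intro x hx
  simp [res_apply hp, hx]

lemma fx_comm {A B : Finset Ω} (hAB : Disjoint A B) {u v : Perm Ω} (hu : u ∈ Fx A)
    (hv : v ∈ Fx B) : u * v = v * u := by
  apply Perm.Disjoint.commute
  intro x
  by_cases hx : x ∈ A
  · exact Or.inr (mem_Fx.1 hv x (Finset.disjoint_left.1 hAB hx))
  · exact Or.inl (mem_Fx.1 hu x hx)

lemma mul_apply_left {A B : Finset Ω} (hAB : Disjoint A B) (u : Perm Ω) {v : Perm Ω}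
    (hv : v ∈ Fx B) {x : Ω} (hx : x ∈ A) : (u * v) x = u x := by
  simp [mem_Fx.1 hv x (Finset.disjoint_left.1 hAB hx)]

lemma res_mul {A B : Finset Ω} (hAB : Disjoint A B) {u v : Perm Ω} (hu : u ∈ Fx A)
    (hv : v ∈ Fx B) : res A (u * v) = u := by
  have hp : u * v ∈ Pr A := (Pr A).mul_mem (Fx_le_Pr hu) (Fx_le_Pr' hAB hv)
  ext x
  rw [res_apply hp]
  split_ifs with hx
  · exact mul_apply_left hAB u hv hx
  · exact (mem_Fx.1 hu x hx).symm

/-- The Young subgroup of a pair of sets. -/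
def YS (A B : Finset Ω) : Subgroup (Perm Ω) := Fx (A ∪ B) ⊓ Pr A

lemma Fx_le_YS_left {A B : Finset Ω} : Fx A ≤ YS A B :=
  le_inf (Fx_mono Finset.subset_union_left) Fx_le_Pr

lemma Fx_le_YS_right {A B : Finset Ω} (hAB : Disjoint A B) : Fx B ≤ YS A B :=
  le_inf (Fx_mono Finset.subset_union_right) (Fx_le_Pr' hAB)

lemma dec {A B : Finset Ω} {h : Perm Ω} (hh : h ∈ YS A B) :
    ∃ u ∈ Fx A, ∃ v ∈ Fx B, h = u * v := by
  refine ⟨res A h, res_mem hh.2, (res A h)⁻¹ * h, ?_, by simp⟩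
  rw [mem_Fx]
  intro x hx
  rw [Perm.mul_apply, Perm.inv_eq_iff_eq, res_apply hh.2]
  split_ifs with hxA
  · rfl
  · exact mem_Fx.1 hh.1 x (by simp [hx, hxA])

lemma coeff_mul_disj {A B : Finset Ω} (hAB : Disjoint A B) {x y : GA Ω} (hx : Sup (Fx A) x)
    (hy : Sup (Fx B) y) {u v : Perm Ω} (hu : u ∈ Fx A) (hv : v ∈ Fx B) :
    (x * y).coeff (u * v) = x.coeff u * y.coeff v := by
  rw [mul_coeff, Finset.sum_eq_single u]
  · simp
  · intro h _ hne
    by_contra hc
    have h1 := hx h (left_ne_zero_of_mul hc)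
    have h2 := hy _ (right_ne_zero_of_mul hc)
    apply hne
    have e1 := res_mul hAB h1 h2
    rw [← e1, mul_inv_cancel_left, res_mul hAB hu hv]
  · simp

lemma sup_mul_disj {A B : Finset Ω} (hAB : Disjoint A B) {x y : GA Ω} (hx : Sup (Fx A) x)
    (hy : Sup (Fx B) y) : Sup (YS A B) (x * y) :=
  (hx.mono Fx_le_YS_left).mul (hy.mono (Fx_le_YS_right hAB))

lemma comm_disj {A B : Finset Ω} (hAB : Disjoint A B) {x y : GA Ω} (hx : Sup (Fx A) x)
    (hy : Sup (Fx B) y) : x * y = y * x := by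
  apply ga_ext
  intro g
  by_cases hg : g ∈ YS A B
  · obtain ⟨u, hu, v, hv, rfl⟩ := dec hg
    rw [coeff_mul_disj hAB hx hy hu hv, fx_comm hAB hu hv, coeff_mul_disj hAB.symm hy hx hv hu,
      mul_comm]
  · have h1 : (x * y).coeff g = 0 := by
      by_contra hc; exact hg (sup_mul_disj hAB hx hy g hc)
    have h2 : (y * x).coeff g = 0 := by
      by_contra hc
      exact hg ((hy.mono (Fx_le_YS_right hAB)).mul (hx.mono Fx_le_YS_left) g hc)
    rw [h1, h2]

lemma mul_mem_Stab_union {α : Type} {A B : Finset Ω} (hAB : Disjoint A B) {f : Ω → α}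
    {u v : Perm Ω} (hu : u ∈ Fx A) (hv : v ∈ Fx B) :
    u * v ∈ Stab (A ∪ B) f ↔ u ∈ Stab A f ∧ v ∈ Stab B f := by
  constructor
  · intro h
    have hu' : u ∈ Stab A f := by
      refine ⟨mem_Fx.1 hu, fun x => ?_⟩
      by_cases hx : x ∈ A
      · rw [← mul_apply_left hAB u hv hx]; exact h.2 x
      · rw [mem_Fx.1 hu x hx]
    refine ⟨hu', mem_Fx.1 hv, fun x => ?_⟩
    rw [← h.2 x, Perm.mul_apply, hu'.2]
  · rintro ⟨h1, h2⟩
    refine ⟨mem_Fx.1 ((Fx (A ∪ B)).mul_mem (Fx_mono Finset.subset_union_left hu)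
      (Fx_mono Finset.subset_union_right hv)), fun x => ?_⟩
    rw [Perm.mul_apply, h1.2, h2.2]

lemma M_union_coeff {α : Type} {A B : Finset Ω} (hAB : Disjoint A B) (f : Ω → α)
    {h : Perm Ω} (hh : h ∈ YS A B) :
    (M (Stab (A ∪ B) f)).coeff h = (M (Stab A f) * M (Stab B f)).coeff h := by
  obtain ⟨u, hu, v, hv, rfl⟩ := dec hh
  rw [coeff_mul_disj hAB ((sup_M _).mono Stab_le_Fx) ((sup_M _).mono Stab_le_Fx) hu hv]
  simp only [M_coeff, mul_mem_Stab_union hAB hu hv, sg_mul]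
  by_cases h1 : u ∈ Stab A f <;> by_cases h2 : v ∈ Stab B f <;> simp [h1, h2]

lemma P_union_coeff {α : Type} {A B : Finset Ω} (hAB : Disjoint A B) (f : Ω → α)
    {h : Perm Ω} (hh : h ∈ YS A B) :
    (P (Stab (A ∪ B) f)).coeff h = (P (Stab A f) * P (Stab B f)).coeff h := by
  obtain ⟨u, hu, v, hv, rfl⟩ := dec hh
  rw [coeff_mul_disj hAB ((sup_P _).mono Stab_le_Fx) ((sup_P _).mono Stab_le_Fx) hu hv]
  simp only [P_coeff, mul_mem_Stab_union hAB hu hv]
  by_cases h1 : u ∈ Stab A f <;> by_cases h2 : v ∈ Stab B f <;> simp [h1, h2]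

/-- Unique extremal set. -/
lemma extremal {α : Type} [DecidableEq α] {S T : Finset α} (w : α → ℤ) (hc : S.card = T.card)
    (hT : ∀ x ∈ T, w x < 0) (hS : ∀ x ∈ S, x ∉ T → 0 ≤ w x)
    (hsum : ∑ x ∈ S, w x ≤ ∑ x ∈ T, w x) : S = T := by
  have h1 := Finset.sum_sdiff (s₁ := S ∩ T) (s₂ := S) (f := w) Finset.inter_subset_left
  have h2 := Finset.sum_sdiff (s₁ := S ∩ T) (s₂ := T) (f := w) Finset.inter_subset_right
  have h3 : 0 ≤ ∑ x ∈ S \ (S ∩ T), w x := by
    apply Finset.sum_nonneg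
    intro x hx
    simp only [Finset.mem_sdiff, Finset.mem_inter, not_and] at hx
    exact hS x hx.1 (hx.2 hx.1)
  have h4 : T \ (S ∩ T) = ∅ := by
    by_contra hne
    have : ∑ x ∈ T \ (S ∩ T), w x < 0 := by
      apply Finset.sum_neg
      · intro x hx
        exact hT x (Finset.mem_sdiff.1 hx).1
      · exact Finset.nonempty_iff_ne_empty.2 hne
    omega
  have h5 : T ⊆ S := by
    intro x hx
    by_contra hxS
    have : x ∈ T \ (S ∩ T) := by simp [hx, hxS]
    rw [h4] at this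
    simp at this
  exact (Finset.eq_of_subset_of_card_le h5 hc.le).symm

lemma sum_pres {A : Finset Ω} {h : Perm Ω} (hh : h ∈ Pr A) (f : Ω → ℤ) :
    ∑ x ∈ A, f (h x) = ∑ x ∈ A, f x := by
  apply Finset.sum_bijective h h.bijective
  · intro x; exact (mem_Pr.1 hh x).symm
  · intro x _; rfl

/-- Separation. -/
lemma separate {A U : Finset Ω} (f g : Ω → ℤ) (hA : ∀ x ∈ A, f x + g x < 0)
    (hU : ∀ x ∈ U, x ∉ A → 0 ≤ f x + g x) {c r : Perm Ω} (hc : ∀ x, g (c x) = g x)
    (hr : ∀ x, f (r x) = f x) (hrU : ∀ x ∈ A, r x ∈ U) (hcr : c * r ∈ Pr A) : r ∈ Pr A := by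
  have hS : A.map r.toEmbedding = A := by
    apply extremal (fun x => f x + g x) (Finset.card_map _) hA
    · intro x hx hxA
      obtain ⟨y, hy, rfl⟩ := Finset.mem_map.1 hx
      exact hU _ (hrU y hy) hxA
    · rw [Finset.sum_map]
      simp only [Equiv.coe_toEmbedding, Finset.sum_add_distrib, hr]
      have := sum_pres hcr g
      simp only [Perm.mul_apply, hc] at this
      rw [this]
  rw [mem_Pr]
  intro x
  conv_lhs => rw [← hS]
  simp

/-- Restriction of a Young symmetrizer to a Young subgroup. -/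
lemma symm_restrict {A B : Finset Ω} (hAB : Disjoint A B) (row col : Ω → ℕ) (hgt : ℕ → ℕ)
    (hA : ∀ x ∈ A, row x < hgt (col x)) (hB : ∀ x ∈ B, hgt (col x) ≤ row x)
    {h : Perm Ω} (hh : h ∈ YS A B) :
    (M (Stab (A ∪ B) col) * P (Stab (A ∪ B) row)).coeff h =
      ((M (Stab A col) * P (Stab A row)) * (M (Stab B col) * P (Stab B row))).coeff h := by
  have hcomm : (M (Stab A col) * P (Stab A row)) * (M (Stab B col) * P (Stab B row)) =
      (M (Stab A col) * M (Stab B col)) * (P (Stab A row) * P (Stab B row)) := by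
    have := comm_disj hAB ((sup_P (Stab A row)).mono Stab_le_Fx)
      ((sup_M (Stab B col)).mono Stab_le_Fx)
    calc _ = M (Stab A col) * (P (Stab A row) * M (Stab B col)) * P (Stab B row) := by
          simp only [mul_assoc]
      _ = _ := by rw [this]; simp only [mul_assoc]
  rw [hcomm, mul_coeff', mul_coeff']
  apply Finset.sum_congr rfl
  intro r _
  by_cases hr : r ∈ YS A B
  · rw [M_union_coeff hAB col ((YS A B).mul_mem hh ((YS A B).inv_mem hr)),
      P_union_coeff hAB row hr]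
  · have h1 : (P (Stab A row) * P (Stab B row)).coeff r = 0 := by
      by_contra hc
      exact hr (sup_mul_disj hAB ((sup_P _).mono Stab_le_Fx) ((sup_P _).mono Stab_le_Fx) r hc)
    rw [h1, mul_zero]
    by_contra hc
    have h2 := sup_M _ _ (left_ne_zero_of_mul hc)
    have h3 := sup_P _ _ (right_ne_zero_of_mul hc)
    apply hr
    refine ⟨Stab_le_Fx h3, ?_⟩
    refine separate (U := A ∪ B) (c := h * r⁻¹) (fun x => (row x : ℤ))
      (fun x => -(hgt (col x) : ℤ)) ?_ ?_ ?_ ?_ ?_ ?_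
    · intro x hx; have := hA x hx; omega
    · intro x hx hxA
      have := hB x (by simpa [hxA] using hx)
      omega
    · intro x; rw [h2.2]
    · intro x; rw [h3.2]
    · intro x hx
      exact (Fx_map_mem (Stab_le_Fx h3) x).2 (Finset.mem_union_left _ hx)
    · simpa using hh.2

/-- The Pieri step. -/
lemma pieri_step {A B : Finset Ω} (hAB : Disjoint A B) (row col : Ω → ℕ) (hgt : ℕ → ℕ)
    (hA : ∀ x ∈ A, row x < hgt (col x)) (hB : ∀ x ∈ B, hgt (col x) ≤ row x)
    {y z : GA Ω} (hy : Sup (Fx A) y) (hz : Sup (Fx B) z) {g : Perm Ω} (hg : g ∈ Fx A)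
    (h1 : y * e g * M (Stab A col) * P (Stab A row) ≠ 0)
    (h2 : (z * M (Stab B col) * P (Stab B row)).coeff 1 ≠ 0) :
    y * z * e g * M (Stab (A ∪ B) col) * P (Stab (A ∪ B) row) ≠ 0 := by
  rw [ne_zero_iff] at h1 ⊢
  obtain ⟨x, hx⟩ := h1
  have hsA : Sup (Fx A) (y * e g * M (Stab A col) * P (Stab A row)) :=
    ((hy.mul (sup_e hg)).mul ((sup_M _).mono Stab_le_Fx)).mul ((sup_P _).mono Stab_le_Fx)
  have hsB : Sup (Fx B) (z * M (Stab B col) * P (Stab B row)) :=
    (hz.mul ((sup_M _).mono Stab_le_Fx)).mul ((sup_P _).mono Stab_le_Fx)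
  have hxA := hsA x hx
  refine ⟨x, ?_⟩
  have hw : Sup (YS A B) (y * z * e g) :=
    (sup_mul_disj hAB hy hz).mul (sup_e (Fx_le_YS_left hg))
  have e1 : (y * z * e g * M (Stab (A ∪ B) col) * P (Stab (A ∪ B) row)).coeff x =
      (y * z * e g * ((M (Stab A col) * P (Stab A row)) *
        (M (Stab B col) * P (Stab B row)))).coeff x := by
    rw [mul_assoc (y * z * e g), mul_coeff, mul_coeff (y * z * e g)]
    apply Finset.sum_congr rfl
    intro u _
    by_cases hu : (y * z * e g).coeff u = 0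
    · simp [hu]
    · rw [symm_restrict hAB row col hgt hA hB
        ((YS A B).mul_mem ((YS A B).inv_mem (hw u hu)) (Fx_le_YS_left hxA))]
  have e2 : y * z * e g * ((M (Stab A col) * P (Stab A row)) *
        (M (Stab B col) * P (Stab B row))) =
      (y * e g * M (Stab A col) * P (Stab A row)) * (z * M (Stab B col) * P (Stab B row)) := by
    have := comm_disj hAB (((sup_e hg).mul ((sup_M (Stab A col)).mono Stab_le_Fx)).mul
      ((sup_P (Stab A row)).mono Stab_le_Fx)) hz
    calc _ = y * (z * (e g * M (Stab A col) * P (Stab A row))) *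
          (M (Stab B col) * P (Stab B row)) := by simp only [mul_assoc]
      _ = _ := by rw [← this]; simp only [mul_assoc]
  rw [e1, e2]
  have := coeff_mul_disj hAB hsA hsB hxA (Fx B).one_mem
  rw [mul_one] at this
  rw [this]
  exact mul_ne_zero hx h2

end

end Vale.Agent.P197
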