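import Vale.Agent.P197.Res

/-! The triangle with its three directions. -/

namespace Vale.Agent.P197

open Equiv Finset
open scoped Classical

noncomputable section

variable {Ω : Type} [Fintype Ω] [DecidableEq Ω]

/-- Barycentric coordinates on the staircase. -/
structure Tri (Ω : Type) (m : ℕ) where
  a : Ω → ℕ
  b : Ω → ℕ
  c : Ω → ℕ
  sum : ∀ x, a x + b x + c x + 1 = m
  inj : ∀ x y, a x = a y → b x = b y → x = y
  surj : ∀ i j, i + j < m → ∃ x, a x = i ∧ b x = j

variable {m : ℕ}

/-- Exchange the first two coordinates. -/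
def Tri.sab (T : Tri Ω m) : Tri Ω m where
  a := T.b
  b := T.a
  c := T.c
  sum x := by have := T.sum x; omega
  inj x y h1 h2 := T.inj x y h2 h1
  surj i j h := by
    obtain ⟨x, h1, h2⟩ := T.surj j i (by omega)
    exact ⟨x, h2, h1⟩

/-- Exchange the first and the last coordinate. -/
def Tri.sac (T : Tri Ω m) : Tri Ω m where
  a := T.c
  b := T.b
  c := T.a
  sum x := by have := T.sum x; omega
  inj x y h1 h2 := T.inj x y (by have := T.sum x; have := T.sum y; omega) h2
  surj i j h := by
    obtain ⟨x, h1, h2⟩ := T.surj (m - 1 - i - j) j (by omega)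
    exact ⟨x, by have := T.sum x; omega, h2⟩

/-- Full stabiliser of a function. -/
def St {α : Type} (f : Ω → α) : Subgroup (Perm Ω) := Stab univ f

lemma mem_St {α : Type} {f : Ω → α} {g : Perm Ω} : g ∈ St f ↔ ∀ x, f (g x) = f x := by
  simp [St, mem_Stab]

lemma swap_mem_St {α : Type} {f : Ω → α} {u v : Ω} (h : f u = f v) : swap u v ∈ St f :=
  swap_mem_Stab (mem_univ _) (mem_univ _) h

/-- The lemma of von Neumann. -/
lemma Tri.vn (T : Tri Ω m) (g : Perm Ω) :
    (∃ d ∈ St T.b, ∃ r ∈ St T.a, g = d * r) ∨ M (St T.b) * e g * P (St T.a) = 0 := by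
  by_cases h : ∃ u v, u ≠ v ∧ T.a u = T.a v ∧ T.b (g u) = T.b (g v)
  · obtain ⟨u, v, huv, h1, h2⟩ := h
    exact Or.inr (M_kill huv (swap_mem_St h2) (e_mul_P (swap_mem_St h1)))
  left
  push Not at h
  have hφ : Function.Injective (fun x => (T.a x, T.b (g x))) := by
    intro u v huv
    by_contra hne
    simp only [Prod.mk.injEq] at huv
    exact h u v hne huv.1 huv.2
  have hψ : Function.Injective (fun x => (T.a x, T.b x)) := by
    intro u v huv
    simp only [Prod.mk.injEq] at huv
    exact T.inj u v huv.1 huv.2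
  have hS : univ.image (fun x => (T.a x, T.b (g x))) = univ.image (fun x => (T.a x, T.b x)) := by
    apply extremal (fun p : ℕ × ℕ => (p.1 : ℤ) + p.2 - m)
    · rw [Finset.card_image_of_injective _ hφ, Finset.card_image_of_injective _ hψ]
    · intro p hp
      obtain ⟨x, -, rfl⟩ := Finset.mem_image.1 hp
      have := T.sum x
      simp only
      omega
    · intro p _ hp
      by_contra hc
      apply hp
      obtain ⟨x, h1, h2⟩ := T.surj p.1 p.2 (by omega)
      exact Finset.mem_image.2 ⟨x, mem_univ _, by simp [h1, h2]⟩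
    · rw [Finset.sum_image (fun x _ y _ h => hφ h), Finset.sum_image (fun x _ y _ h => hψ h)]
      simp only [Finset.sum_sub_distrib, Finset.sum_add_distrib]
      rw [Equiv.sum_comp g (fun x => (T.b x : ℤ))]
  have hex : ∀ x, ∃ y, T.a y = T.a x ∧ T.b y = T.b (g x) := by
    intro x
    have : (T.a x, T.b (g x)) ∈ univ.image (fun x => (T.a x, T.b x)) := by
      rw [← hS]; exact Finset.mem_image.2 ⟨x, mem_univ _, rfl⟩
    obtain ⟨y, -, hy⟩ := Finset.mem_image.1 this
    simp only [Prod.mk.injEq] at hy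
    exact ⟨y, hy⟩
  choose p hp using hex
  have hpi : Function.Injective p := by
    intro u v huv
    apply hφ
    simp only [Prod.mk.injEq]
    rw [← (hp u).1, ← (hp v).1, ← (hp u).2, ← (hp v).2, huv]
    exact ⟨rfl, rfl⟩
  let r : Perm Ω := Equiv.ofBijective p (Finite.injective_iff_bijective.1 hpi)
  refine ⟨g * r⁻¹, ?_, r, ?_, by simp⟩
  · rw [mem_St]
    intro x
    obtain ⟨y, rfl⟩ := r.surjective x
    simp only [Perm.mul_apply, Perm.coe_inv, symm_apply_apply]
    exact (hp y).2.symm
  · rw [mem_St]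
    intro x
    exact (hp x).1

lemma Tri.sep (T : Tri Ω m) {d r : Perm Ω} (hd : d ∈ St T.b) (hr : r ∈ St T.a) (j : ℕ)
    (h : d * r ∈ Pr (univ.filter fun x => j ≤ T.c x)) :
    r ∈ Pr (univ.filter fun x => j ≤ T.c x) := by
  refine separate (U := univ) (c := d) (fun x => (T.a x : ℤ)) (fun x => (T.b x : ℤ) - m + j)
    ?_ ?_ ?_ ?_ ?_ h
  · intro x hx
    have := T.sum x
    simp only [mem_filter, mem_univ, true_and] at hx
    omega
  · intro x _ hx
    have := T.sum x
    simp only [mem_filter, mem_univ, true_and] at hx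
    omega
  · intro x; rw [mem_St.1 hd]
  · intro x; rw [mem_St.1 hr]
  · intro x _; exact mem_univ _

lemma Tri.eq_one (T : Tri Ω m) {g : Perm Ω} (ha : g ∈ St T.a) (hb : g ∈ St T.b) : g = 1 := by
  ext x
  exact T.inj _ _ (mem_St.1 ha x) (mem_St.1 hb x)

lemma Tri.f3 (T : Tri Ω m) {d r : Perm Ω} (hd : d ∈ St T.b) (hr : r ∈ St T.a)
    (h : d * r ∈ St T.c) : r = 1 ∧ d = 1 := by
  have h1 : ∀ j, r ∈ Pr (univ.filter fun x => j ≤ T.c x) := by
    intro j
    apply T.sep hd hr j
    rw [mem_Pr]
    intro x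
    simp only [mem_filter, mem_univ, true_and, mem_St.1 h x]
  have h2 : r ∈ St T.c := by
    rw [mem_St]
    intro x
    have e1 := mem_Pr.1 (h1 (T.c x)) x
    have e2 := mem_Pr.1 (h1 (T.c (r x))) x
    simp only [mem_filter, mem_univ, true_and, le_refl, iff_true, true_iff] at e1 e2
    omega
  have h3 : r = 1 := T.sac.sab.sac.eq_one hr h2
  subst h3
  rw [mul_one] at h
  exact ⟨rfl, T.sac.eq_one h hd⟩

lemma Tri.bca (T : Tri Ω m) :
    M (St T.b) * P (St T.c) * P (St T.a) = M (St T.b) * P (St T.a) := by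
  rw [expand (P (St T.c))]
  simp only [Finset.mul_sum, Finset.sum_mul, mul_smul_comm, smul_mul_assoc]
  rw [Finset.sum_eq_single 1]
  · simp [P_coeff]
  · intro g _ hg
    rw [P_coeff]
    split_ifs with hc
    · rcases T.vn g with ⟨d, hd, r, hr, rfl⟩ | h
      · obtain ⟨rfl, rfl⟩ := T.f3 hd hr hc
        simp at hg
      · rw [h, smul_zero]
    · simp
  · simp

/-- The Young symmetrizer of the staircase. -/
def Tri.c0 (T : Tri Ω m) : GA Ω := M (St T.b) * P (St T.a)

lemma Tri.c0_one (T : Tri Ω m) : T.c0.coeff 1 = 1 := by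
  rw [Tri.c0, mul_coeff, Finset.sum_eq_single 1]
  · simp [M_coeff, P_coeff]
  · intro g _ hg
    by_contra hc
    have h1 := sup_M _ _ (left_ne_zero_of_mul hc)
    have h2 := sup_P _ _ (right_ne_zero_of_mul hc)
    exact hg (T.eq_one (by simpa using h2) h1)
  · simp

/-- Reduction modulo two. -/
def red : GA Ω →+* MonoidAlgebra (ZMod 2) (Perm Ω) :=
  MonoidAlgebra.mapRingHom (Perm Ω) (Int.castRingHom (ZMod 2))

lemma red_coeff (x : GA Ω) (g : Perm Ω) : (red x).coeff g = (x.coeff g : ZMod 2) := by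
  simp [red, MonoidAlgebra.coeff_mapRingHom]

lemma red_M (S : Subgroup (Perm Ω)) : red (M S) = red (P S) := by
  apply MonoidAlgebra.coeff_injective
  ext g
  simp only [red_coeff, M_coeff, P_coeff]
  split_ifs
  · simp [sg_zmod]
  · rfl

lemma Tri.bca2 (T : Tri Ω m) :
    red (P (St T.b)) * red (P (St T.c)) * red (P (St T.a)) = red (P (St T.b)) * red (P (St T.a)) := by
  have := congrArg red T.bca
  simpa only [map_mul, red_M] using this

lemma Tri.c0_sq (T : Tri Ω m) : ∃ H : ℤ, (H : ZMod 2) = 1 ∧ T.c0 * T.c0 = H • T.c0 := by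
  have h1 : ∀ g, ∃ ε : ℤ, M (St T.b) * e g * P (St T.a) = ε • T.c0 := by
    intro g
    rcases T.vn g with ⟨d, hd, r, hr, rfl⟩ | h
    · refine ⟨sg d, ?_⟩
      rw [← e_mul_e, ← mul_assoc, M_mul_e hd, mul_assoc, e_mul_P hr, smul_mul_assoc]
      rfl
    · exact ⟨0, by rw [h, zero_smul]⟩
  choose ε hε using h1
  have h2 : T.c0 * T.c0 = (∑ g, (P (St T.a) * M (St T.b)).coeff g * ε g) • T.c0 := by
    calc T.c0 * T.c0 = M (St T.b) * (P (St T.a) * M (St T.b)) * P (St T.a) := by
          simp only [Tri.c0, mul_assoc]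
      _ = M (St T.b) * (∑ g, (P (St T.a) * M (St T.b)).coeff g • e g) * P (St T.a) := by
          rw [← expand]
      _ = _ := by
          simp only [Finset.mul_sum, Finset.sum_mul, mul_smul_comm, smul_mul_assoc, hε,
            Finset.sum_smul, mul_smul]
  refine ⟨_, ?_, h2⟩
  have h3 : red (T.c0 * T.c0) = red T.c0 := by
    simp only [Tri.c0, map_mul, red_M]
    have r1 := T.sab.bca2
    have r2 := T.sac.bca2
    have r3 := T.sab.sac.sab.bca2
    have r4 := T.bca2
    simp only [Tri.sab, Tri.sac] at r1 r2 r3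
    set A := red (P (St T.a))
    set B := red (P (St T.b))
    set C := red (P (St T.c))
    calc B * A * (B * A) = B * (A * B) * A := by simp only [mul_assoc]
      _ = B * (A * C * B) * A := by rw [r1]
      _ = (B * A * C) * B * A := by simp only [mul_assoc]
      _ = B * (C * B * A) := by rw [r2]; simp only [mul_assoc]
      _ = B * C * A := by rw [r3]; simp only [mul_assoc]
      _ = B * A := r4
  rw [h2] at h3
  have h4 := congrArg (fun z => z.coeff 1) h3
  simp only [red_coeff, smul_coeff, T.c0_one] at h4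
  simpa using h4

lemma Tri.c0_sac (T : Tri Ω m) : T.sac.c0 = T.c0 * P (St T.c) := T.sac.bca.symm

end

end Vale.Agent.P197
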