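import Vale.Agent.P197.Gen

/-! The two-adic argument. -/

namespace Vale.Agent.P197

open Equiv Finset
open scoped Classical

noncomputable section

variable {Ω : Type} [Fintype Ω] [DecidableEq Ω] {m : ℕ}

/-- Coefficients of `w` acting diagonally on a pure tensor. -/
def TT (w x1 x2 : GA Ω) (g1 g2 : Perm Ω) : ℤ :=
  ∑ g, w.coeff g * x1.coeff (g⁻¹ * g1) * x2.coeff (g⁻¹ * g2)

/-- Right multiplication in the first variable. -/
def r1 (Z : Perm Ω → Perm Ω → ℤ) (u : GA Ω) (g1 g2 : Perm Ω) : ℤ :=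
  ∑ a, Z (g1 * a⁻¹) g2 * u.coeff a

/-- Right multiplication in the second variable. -/
def r2 (Z : Perm Ω → Perm Ω → ℤ) (u : GA Ω) (g1 g2 : Perm Ω) : ℤ :=
  ∑ a, Z g1 (g2 * a⁻¹) * u.coeff a

lemma TT_comm (w x1 x2 : GA Ω) (g1 g2 : Perm Ω) : TT w x1 x2 g1 g2 = TT w x2 x1 g2 g1 := by
  simp only [TT]
  apply Finset.sum_congr rfl
  intro g _
  ring

lemma TT_mul1 (w x1 x2 u : GA Ω) : TT w (x1 * u) x2 = r1 (TT w x1 x2) u := by
  funext g1 g2
  simp only [TT, r1, mul_coeff' x1 u, Finset.mul_sum, Finset.sum_mul]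
  rw [Finset.sum_comm]
  apply Finset.sum_congr rfl
  intro a _
  apply Finset.sum_congr rfl
  intro g _
  simp only [mul_assoc]
  ring

lemma TT_mul2 (w x1 x2 u : GA Ω) : TT w x1 (x2 * u) = r2 (TT w x1 x2) u := by
  funext g1 g2
  rw [TT_comm, TT_mul1]
  simp only [r1, r2, TT_comm w x2 x1]

lemma TT_smul1 (w x1 x2 : GA Ω) (c : ℤ) (g1 g2 : Perm Ω) :
    TT w (c • x1) x2 g1 g2 = c * TT w x1 x2 g1 g2 := by
  simp only [TT, smul_coeff, Finset.mul_sum]
  apply Finset.sum_congr rfl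
  intro g _
  ring

lemma TT_smul2 (w x1 x2 : GA Ω) (c : ℤ) (g1 g2 : Perm Ω) :
    TT w x1 (c • x2) g1 g2 = c * TT w x1 x2 g1 g2 := by
  rw [TT_comm, TT_smul1, TT_comm]

lemma TT_left (w x1 x2 : GA Ω) (k g1 g2 : Perm Ω) :
    TT (e k * w) x1 x2 g1 g2 = TT w x1 x2 (k⁻¹ * g1) (k⁻¹ * g2) := by
  simp only [TT, e_mul_coeff]
  rw [← Equiv.sum_comp (Equiv.mulLeft k)]
  simp [mul_assoc]

lemma TT_right (w x1 x2 : GA Ω) (k g1 g2 : Perm Ω) :
    TT (w * e k) x1 x2 g1 g2 = TT w (e k * x1) (e k * x2) g1 g2 := by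
  simp only [TT, e_mul_coeff, mul_e_coeff]
  rw [← Equiv.sum_comp (Equiv.mulRight k)]
  simp [mul_assoc]

lemma TT_ideal {w c : GA Ω} (h : ∀ p1 p2 g1 g2, TT w (p1 * c) (p2 * c) g1 g2 = 0)
    (k k' : Perm Ω) (p1 q1 p2 q2 : GA Ω) (g1 g2 : Perm Ω) :
    TT (e k * w * e k') (p1 * c * q1) (p2 * c * q2) g1 g2 = 0 := by
  rw [mul_assoc, TT_left, TT_right, ← mul_assoc, ← mul_assoc, ← mul_assoc, ← mul_assoc,
    TT_mul1, TT_mul2]
  simp [r1, r2, h]

lemma rel_TT (T : Tri Ω m) (w p x2 : GA Ω) (g2 : Perm Ω) :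
    Rel T fun g1 => TT w (p * T.cH univ) x2 g1 g2 := by
  constructor
  · intro u v h1 h2 g
    have := T.cH_swap h1 h2
    have e1 : ∀ k, (p * T.cH univ).coeff (k * swap u v) = (p * T.cH univ).coeff k := by
      intro k
      conv_rhs => rw [← this, ← mul_assoc, mul_e_coeff, swap_inv]
    simp only [TT, ← mul_assoc, e1]
  · intro u v y huv h1 h2 h3 hyu hyv g
    have := T.cH_three huv h1 h2 h3 hyu hyv
    have e1 : ∀ k, (p * T.cH univ).coeff k + (p * T.cH univ).coeff (k * swap u y) +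
        (p * T.cH univ).coeff (k * swap v y) = 0 := by
      intro k
      have e2 : (p * T.cH univ * (1 + e (swap u y) + e (swap v y))).coeff k = 0 := by
        rw [mul_assoc, this, mul_zero]; rfl
      simpa only [mul_add, mul_one, add_coeff, mul_e_coeff, swap_inv] using e2
    simp only [TT, ← mul_assoc, ← Finset.sum_add_distrib]
    apply Finset.sum_eq_zero
    intro k _
    have := e1 (k⁻¹ * g)
    linear_combination (w.coeff k * x2.coeff (k⁻¹ * g2)) * this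

lemma Rel.half {T : Tri Ω m} {F : Perm Ω → ℤ} (h : Rel T fun g => 2 * F g) : Rel T F := by
  constructor
  · intro u v h1 h2 g
    have := h.1 u v h1 h2 g
    simp only at this
    omega
  · intro u v y huv h1 h2 h3 hyu hyv g
    have := h.2 u v y huv h1 h2 h3 hyu hyv g
    simp only at this
    omega

lemma exists_transversal {S R : Subgroup (Perm Ω)} (hSR : S ≤ R) :
    ∃ u : GA Ω, P S * u = P R ∧ Sup R u ∧ ∀ a ∈ S, u.coeff a = if a = 1 then 1 else 0 := by
  obtain ⟨t, ht, h1⟩ := Subgroup.exists_isComplement_right S 1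
  refine ⟨mk fun g => if g ∈ t ∧ g ∈ R then 1 else 0, ?_, ?_, ?_⟩
  · apply ga_ext
    intro g
    obtain ⟨⟨s, a⟩, hsa, huniq⟩ := ht.existsUnique g
    simp only at hsa
    rw [mul_coeff', Finset.sum_eq_single (a : Perm Ω)]
    · have e1 : g * (a : Perm Ω)⁻¹ ∈ S := by
        rw [← hsa]; simpa using s.2
      have e2 : (a : Perm Ω) ∈ R ↔ g ∈ R := by
        rw [← hsa]; exact (R.mul_mem_cancel_left (hSR s.2)).symm
      simp [P_coeff, e1, e2]
    · intro b _ hb
      simp only [P_coeff, coeff_mk]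
      split_ifs with c1 c2
      · exfalso
        apply hb
        have := huniq (⟨_, c1⟩, ⟨b, c2.1⟩) (by simp)
        exact congrArg (fun z => (z.2 : Perm Ω)) this
      all_goals simp
    · simp
  · intro g hg
    simp only [coeff_mk] at hg
    by_contra hc
    simp [hc] at hg
  · intro a ha
    simp only [coeff_mk]
    by_cases h : a = 1
    · simp [h, h1]
    · rw [if_neg h, if_neg]
      rintro ⟨c1, -⟩
      apply h
      obtain ⟨z, -, huniq⟩ := ht.existsUnique a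
      have e1 := huniq (⟨a, ha⟩, ⟨1, h1⟩) (by simp)
      have e2 := huniq (⟨1, S.one_mem⟩, ⟨a, c1⟩) (by simp)
      have := congrArg (fun z => (z.1 : Perm Ω)) (e1.trans e2.symm)
      simpa using this

lemma exists_ext_char (H : Subgroup (Perm Ω)) (χ : Perm Ω → ℤ) (h1 : ∀ h, χ h = 1 ∨ χ h = -1)
    (h2 : ∀ h ∈ H, ∀ h' ∈ H, χ (h * h') = χ h * χ h') :
    ∃ ψ : Perm Ω → ℤ, (∀ g, ψ g = 1 ∨ ψ g = -1) ∧ ∀ g, ∀ h ∈ H, ψ (g * h) = ψ g * χ h := by
  refine ⟨fun g => χ ((QuotientGroup.mk g : Perm Ω ⧸ H).out⁻¹ * g), fun g => h1 _, ?_⟩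
  intro g h hh
  simp only [QuotientGroup.mk_mul_of_mem g hh]
  rw [← mul_assoc, h2 _ _ h hh]
  exact QuotientGroup.eq.1 (Quotient.out_eq' _)

lemma descent {ι : Type} (Good : (ι → ι → ℤ) → Prop)
    (half : ∀ Z : ι → ι → ℤ, Good (fun a b => 2 * Z a b) → Good Z)
    (ev : ∀ Z, Good Z → ∀ a b, Even (Z a b)) : ∀ Z, Good Z → ∀ a b, Z a b = 0 := by
  have key : ∀ n : ℕ, ∀ Z, Good Z → ∀ a b, (2 : ℤ) ^ n ∣ Z a b := by
    intro n
    induction n with
    | zero => simp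
    | succ n ih =>
      intro Z hZ a b
      have hev := ev Z hZ
      simp only [even_iff_exists_two_mul] at hev
      choose Z' hZ' using hev
      have : Z = fun a b => 2 * Z' a b := by
        funext a b; exact hZ' a b
      rw [this] at hZ
      rw [hZ', pow_succ, mul_comm]
      exact mul_dvd_mul_left 2 (ih Z' (half Z' hZ) a b)
  intro Z hZ a b
  apply Int.eq_zero_of_dvd_of_natAbs_lt_natAbs (key (Z a b).natAbs Z hZ a b)
  simp [Int.natAbs_pow, Nat.lt_two_pow_self]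

lemma Tri.sepH (T : Tri Ω m) {a b : Perm Ω} (ha : a ∈ St T.a) (hb : b ∈ St T.c)
    (h : a * b⁻¹ ∈ St T.blk) : a ∈ St T.blk ∧ b ∈ St T.blk := by
  have h1 : ∀ j, b⁻¹ ∈ Pr (univ.filter fun x => 2 * j ≤ T.b x) := by
    intro j
    apply T.sab.sac.sep (d := a) ha ((St T.c).inv_mem hb) (2 * j)
    rw [mem_Pr]
    intro x
    have := mem_St.1 h x
    simp only [Tri.blk] at this
    simp only [mem_filter, mem_univ, true_and]
    change 2 * j ≤ T.b _ ↔ 2 * j ≤ T.b _
    omega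
  have h2 : b⁻¹ ∈ St T.blk := by
    rw [mem_St]
    intro x
    have e1 := mem_Pr.1 (h1 (T.b x / 2)) x
    have e2 := mem_Pr.1 (h1 (T.b (b⁻¹ x) / 2)) x
    simp only [mem_filter, mem_univ, true_and] at e1 e2
    simp only [Tri.blk]
    omega
  have h3 : b ∈ St T.blk := by simpa using h2
  exact ⟨by simpa using (St T.blk).mul_mem h h3, h3⟩

/-- Twisted products of matrix coefficients on a union of double layers. -/
def InY (T : Tri Ω m) (A : Finset Ω) (y : GA Ω) : Prop :=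
  ∃ χ : Perm Ω → ℤ, (∀ h, χ h = 1 ∨ χ h = -1) ∧
    (∀ h ∈ Stab A T.blk, ∀ h' ∈ Stab A T.blk, χ (h * h') = χ h * χ h') ∧
    ∃ h1 ∈ Stab A T.blk, ∃ h2 ∈ Stab A T.blk, ∀ h,
      y.coeff h = χ h * (T.cH A).coeff (h1 * h) * (T.sac.cH A).coeff (h2 * h)

lemma St_fR_le (T : Tri Ω m) : St T.fR ≤ St T.a :=
  fun _ hg => mem_St.2 fun x => congrArg Prod.fst (mem_St.1 hg x)

lemma mem_St_fR (T : Tri Ω m) {g : Perm Ω} (h1 : g ∈ St T.a) (h2 : g ∈ St T.blk) : g ∈ St T.fR :=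
  mem_St.2 fun x => by simp only [Tri.fR, mem_St.1 h1 x, mem_St.1 h2 x]

lemma r12_smul (Z : Perm Ω → Perm Ω → ℤ) (u1 u2 : GA Ω) (g1 g2 : Perm Ω) :
    r1 (r2 (fun a b => 2 * Z a b) u2) u1 g1 g2 = 2 * r1 (r2 Z u2) u1 g1 g2 := by
  simp only [r1, r2, Finset.mul_sum, Finset.sum_mul, mul_assoc]

theorem two_adic (T : Tri Ω m) {y cν : GA Ω} (hy : InY T univ y) {g0 : Perm Ω}
    (hne : y * e g0 * cν ≠ 0) :
    ∃ p1 p2 g1 g2, TT cν (p1 * T.c0) (p2 * T.c0) g1 g2 ≠ 0 := by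
  by_contra hc
  push Not at hc
  obtain ⟨χ, hχ1, hχ2, h1, hh1, h2, hh2, hy⟩ := hy
  obtain ⟨ψ, hψ1, hψ2⟩ := exists_ext_char _ χ hχ1 hχ2
  obtain ⟨x, hx⟩ := (ne_zero_iff _).1 hne
  obtain ⟨u1, hu1, hu1s, hu1c⟩ := exists_transversal (St_fR_le T)
  obtain ⟨u2, hu2, hu2s, hu2c⟩ := exists_transversal (St_fR_le T.sac)
  obtain ⟨H1, hH1, hq1⟩ := T.c0_sq
  obtain ⟨H2, hH2, hq2⟩ := T.sac.c0_sq
  set w : GA Ω := e g0 * cν * e x⁻¹ with hw
  set x1 : GA Ω := e h1⁻¹ * T.cH univ with hx1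
  set x2 : GA Ω := e h2⁻¹ * T.sac.cH univ with hx2
  have sx1 : Sup (St T.blk) x1 := (sup_e ((St T.blk).inv_mem hh1)).mul (T.sup_cH univ)
  have sx2 : Sup (St T.blk) x2 := (sup_e ((St T.blk).inv_mem hh2)).mul (T.sac.sup_cH univ)
  set x2' : GA Ω := mk fun h => χ h * x2.coeff h with hx2'
  set w' : GA Ω := mk fun g => ψ g * w.coeff g with hw'
  have hZ : ∀ a b, ψ b * TT w' x1 x2 a b = TT w x1 x2' a b := by
    intro a b
    simp only [TT, Finset.mul_sum, hw', hx2', coeff_mk]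
    apply Finset.sum_congr rfl
    intro g _
    by_cases h0 : x2.coeff (g⁻¹ * b) = 0
    · simp [h0]
    · have := hψ2 g _ (sx2 _ h0)
      rw [mul_inv_cancel_left] at this
      rw [this]
      rcases hψ1 g with h | h <;> rw [h] <;> ring
  have e1 : x1 * u1 = e h1⁻¹ * T.c0 := by
    rw [hx1, Tri.cH, Tri.c0, ← hu1]; simp only [mul_assoc]; rfl
  have e2 : x2 * u2 = e h2⁻¹ * T.sac.c0 := by
    rw [hx2, Tri.cH, Tri.c0, ← hu2]; simp only [mul_assoc]; rfl
  have hzero := descent (fun Z =>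
      (∀ g1 g2, r1 (r2 (fun a b => ψ b * Z a b) (u2 * T.sac.c0)) (u1 * T.c0) g1 g2 = 0) ∧
      (∀ g1 g2, r1 (r2 Z (u2 * T.sac.c0)) (u1 * T.c0) g1 g2 = H1 * H2 * r1 (r2 Z u2) u1 g1 g2) ∧
      (∀ g1 g2, Z g1 g2 ≠ 0 → g1⁻¹ * g2 ∈ St T.blk) ∧
      (∀ g2, Rel T fun g1 => Z g1 g2) ∧ (∀ g1, Rel T.sac (Z g1))) ?_ ?_ (TT w' x1 x2) ?_ 1 1
  · apply hx
    have := hZ 1 1
    rw [hzero, mul_zero] at this
    rw [mul_assoc, mul_coeff, this, TT, ← Equiv.sum_comp (Equiv.inv (Perm Ω))]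
    apply Finset.sum_congr rfl
    intro h _
    simp only [hy, hw, hx1, hx2', hx2, coeff_mk, e_mul_coeff, mul_e_coeff, inv_inv, mul_one,
      Equiv.inv_apply, mul_assoc]
    ring
  · rintro Z ⟨c1, c2, c3, c4, c5⟩
    refine ⟨fun g1 g2 => ?_, fun g1 g2 => ?_, fun g1 g2 h => c3 g1 g2 (mul_ne_zero two_ne_zero h),
      fun g2 => (c4 g2).half, fun g1 => (c5 g1).half⟩
    · have := c1 g1 g2
      have e3 : (fun a b => ψ b * (2 * Z a b)) = fun a b => 2 * (ψ b * Z a b) := by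
        funext a b; ring
      rw [e3, r12_smul] at this
      omega
    · have := c2 g1 g2
      rw [r12_smul, r12_smul] at this
      linarith
  · rintro Z ⟨c1, c2, c3, c4, c5⟩
    have h0 : ∀ g, Even (Z g g) := by
      intro g
      have a1 : ((r1 (r2 Z (u2 * T.sac.c0)) (u1 * T.c0) g g : ℤ) : ZMod 2) = 0 := by
        have := congrArg (Int.cast : ℤ → ZMod 2) (c1 g g)
        have a0 : ∀ b, ((ψ b : ℤ) : ZMod 2) = 1 := by
          intro b; rcases hψ1 b with h | h <;> rw [h] <;> rfl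
        simp only [r1, r2] at this ⊢
        push_cast at this ⊢
        simpa only [a0, one_mul] using this
      have a2 : r1 (r2 Z u2) u1 g g = Z g g := by
        simp only [r1, r2, Finset.sum_mul]
        have key : ∀ a b : Perm Ω, Z (g * a⁻¹) (g * b⁻¹) * u2.coeff b * u1.coeff a ≠ 0 →
            a = 1 ∧ b = 1 := by
          intro a b hab
          have k1 := c3 _ _ (left_ne_zero_of_mul (left_ne_zero_of_mul hab))
          have k2 := right_ne_zero_of_mul (left_ne_zero_of_mul hab)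
          have k3 := right_ne_zero_of_mul hab
          obtain ⟨k4, k5⟩ := T.sepH (hu1s a k3) (hu2s b k2) (by simpa [mul_assoc] using k1)
          rw [hu1c a (mem_St_fR T (hu1s a k3) k4)] at k3
          rw [hu2c b (mem_St_fR T.sac (hu2s b k2) k5)] at k2
          constructor
          · by_contra hc; simp [hc] at k3
          · by_contra hc; simp [hc] at k2
        rw [Finset.sum_eq_single 1, Finset.sum_eq_single 1]
        · simp [hu1c 1 (Subgroup.one_mem _), hu2c 1 (Subgroup.one_mem _)]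
        · intro b _ hb
          by_contra hc
          exact hb (key 1 b hc).2
        · simp
        · intro a _ ha
          apply Finset.sum_eq_zero
          intro b _
          by_contra hc
          exact ha (key a b hc).1
        · simp
      rw [c2, a2] at a1
      push_cast at a1
      rw [hH1, hH2, one_mul, one_mul] at a1
      exact (ZMod.intCast_eq_zero_iff_even).1 a1
    intro a b
    by_cases hab : Z a b = 0
    · rw [hab]; exact Even.zero
    · have := generation T Z c4 c5 h0 _ (c3 a b hab) a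
      simpa using this
  · refine ⟨fun g1 g2 => ?_, fun g1 g2 => ?_, fun g1 g2 h => ?_, fun g2 => rel_TT T _ _ _ g2,
      fun g1 => ?_⟩
    · have e3 : (fun a b => ψ b * TT w' x1 x2 a b) = TT w x1 x2' := by
        funext a b; exact hZ a b
      rw [e3, ← TT_mul2, ← TT_mul1, T.c0_sac]
      have := TT_ideal hc g0 x⁻¹ (x1 * u1) 1 (x2' * u2) (P (St T.c)) g1 g2
      simpa only [mul_assoc, mul_one, hw] using this
    · rw [← TT_mul2, ← TT_mul1, ← TT_mul2, ← TT_mul1, ← mul_assoc, ← mul_assoc, e1, e2,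
        mul_assoc, mul_assoc, hq1, hq2, mul_smul_comm, mul_smul_comm, TT_smul1, TT_smul2,
        mul_assoc]
    · obtain ⟨g, -, hg⟩ := Finset.exists_ne_zero_of_sum_ne_zero h
      have k1 := sx1 _ (right_ne_zero_of_mul (left_ne_zero_of_mul hg))
      have k2 := sx2 _ (right_ne_zero_of_mul hg)
      simpa [mul_assoc] using (St T.blk).mul_mem ((St T.blk).inv_mem k1) k2
    · have := rel_TT T.sac w' (e h2⁻¹) x1 g1
      simpa only [TT_comm w' x2 x1, ← hx2] using this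

end

end Vale.Agent.P197
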